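import Vale.Agent.P254.DD.Iface

/-!
P254, the (DD) chain: the two functionals of `(B, c, P)` and their frame formulas (helper624).
-/

set_option autoImplicit false

noncomputable section

namespace Vale.Agent.P254.DD

open Matrix Set Filter Topology
open Vale.Agent.P254.L
open scoped BigOperators

variable {n : ℕ}

/-- left side of (DD): `∑ a b, (B S_G B)_ab tr (T_a P T_b P)`, `S_G = A p_G(BA)` -/
def fDD (G : Profile) (D : TiltData n) (B : Mat n) (c : Vec n) (P : Mat n) : ℝ :=
  ∑ a, ∑ b, (B * Sf G.p (D.A B c) B * B) a b *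
    (slc (D.T B c) a * P * slc (D.T B c) b * P).trace

/-- right side of (DD): `tr (S P S P)`, `S = A p_F(BA)` -/
def gDD (F : Profile) (D : TiltData n) (B : Mat n) (c : Vec n) (P : Mat n) : ℝ :=
  (Sf F.p (D.A B c) B * P * Sf F.p (D.A B c) B * P).trace

theorem slc_symm {T : Ten n} (hT : TSymm T) (a : Fin n) : (slc T a)ᵀ = slc T a := by
  ext i j
  exact (hT.2 a i j).symm

/-- `L (∑ L_ak T_k) Lᵀ = (frT L T)_a` -/
theorem slc_frT (L : Mat n) (T : Ten n) (a : Fin n) :
    slc (frT L T) a = ∑ k, L a k • (L * slc T k * Lᵀ) := by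
  ext i j
  simp only [slc, frT, Matrix.of_apply, Matrix.sum_apply, Matrix.smul_apply, smul_eq_mul,
    Matrix.mul_apply, Matrix.transpose_apply, Finset.sum_mul, Finset.mul_sum]
  refine Finset.sum_congr rfl fun k _ => ?_
  rw [Finset.sum_comm]
  refine Finset.sum_congr rfl fun p _ => Finset.sum_congr rfl fun q _ => ?_
  ring

/-- change of frame in the double sum -/
theorem sum_frT (L M' P' : Mat n) (T : Ten n) :
    ∑ a, ∑ b, (Lᵀ * M' * L) a b * (slc T a * (Lᵀ * P' * L) * slc T b * (Lᵀ * P' * L)).trace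
      = ∑ a, ∑ b, M' a b * (slc (frT L T) a * P' * slc (frT L T) b * P').trace := by
  have e1 : ∀ a b, (slc (frT L T) a * P' * slc (frT L T) b * P').trace
      = ∑ k, ∑ l, L a k * L b l *
        (slc T k * (Lᵀ * P' * L) * slc T l * (Lᵀ * P' * L)).trace := by
    intro a b
    rw [slc_frT, slc_frT]
    simp only [Matrix.sum_mul, Matrix.trace_sum, Matrix.smul_mul,
      Matrix.mul_smul, Matrix.trace_smul, smul_eq_mul, Finset.mul_sum]
    rw [Finset.sum_comm]
    refine Finset.sum_congr rfl fun k _ => Finset.sum_congr rfl fun l _ => ?_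
    have e2 : (L * slc T k * Lᵀ * P' * (L * slc T l * Lᵀ) * P').trace
        = (slc T k * (Lᵀ * P' * L) * slc T l * (Lᵀ * P' * L)).trace := by
      have e3 : L * slc T k * Lᵀ * P' * (L * slc T l * Lᵀ) * P'
          = L * (slc T k * Lᵀ * P' * (L * slc T l * Lᵀ) * P') := by
        simp only [Matrix.mul_assoc]
      rw [e3, Matrix.trace_mul_comm]
      simp only [Matrix.mul_assoc]
    rw [e2]; ring
  simp only [e1, Finset.mul_sum, Matrix.mul_apply, Matrix.transpose_apply, Finset.sum_mul]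
  -- both sides are the sum over `a b k l`
  calc ∑ k, ∑ l, ∑ b, ∑ a, L a k * M' a b * L b l *
        (slc T k * (Lᵀ * P' * L) * slc T l * (Lᵀ * P' * L)).trace
      = ∑ k, ∑ a, ∑ b, ∑ l, L a k * M' a b * L b l *
        (slc T k * (Lᵀ * P' * L) * slc T l * (Lᵀ * P' * L)).trace := by
        refine Finset.sum_congr rfl fun k _ => ?_
        rw [Finset.sum_comm]
        calc ∑ b, ∑ l, ∑ a, L a k * M' a b * L b l *
              (slc T k * (Lᵀ * P' * L) * slc T l * (Lᵀ * P' * L)).trace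
            = ∑ b, ∑ a, ∑ l, L a k * M' a b * L b l *
              (slc T k * (Lᵀ * P' * L) * slc T l * (Lᵀ * P' * L)).trace :=
              Finset.sum_congr rfl fun b _ => Finset.sum_comm
          _ = _ := Finset.sum_comm
    _ = ∑ a, ∑ b, ∑ k, ∑ l, L a k * M' a b * L b l *
        (slc T k * (Lᵀ * P' * L) * slc T l * (Lᵀ * P' * L)).trace := by
        rw [Finset.sum_comm]
        exact Finset.sum_congr rfl fun a _ => Finset.sum_comm
    _ = _ := by
        refine Finset.sum_congr rfl fun a _ => Finset.sum_congr rfl fun b _ =>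
          Finset.sum_congr rfl fun k _ => Finset.sum_congr rfl fun l _ => ?_
        ring

variable {A B L : Mat n} {β : Vec n}

/-- `L S Lᵀ = diag p(β)` -/
theorem Fr.conj_Sf (hA : Aᵀ = A) (h : Fr A B L β) (f : ℝ → ℝ) :
    L * Sf f A B * Lᵀ = Matrix.diagonal fun i => f (β i) := by
  rw [Sf_eq hA h]
  have e1 : L * (L * A)ᵀ = 1 := by
    rw [Matrix.transpose_mul, hA, ← Matrix.mul_assoc, h.hA]
  calc L * ((L * A)ᵀ * Matrix.diagonal (fun i => f (β i)) * (L * A)) * Lᵀ
      = (L * (L * A)ᵀ) * Matrix.diagonal (fun i => f (β i)) * (L * A * Lᵀ) := by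
        simp only [Matrix.mul_assoc]
    _ = _ := by rw [e1, h.hA, Matrix.one_mul, Matrix.mul_one]

/-- `B S B = Lᵀ (diag β (L S Lᵀ) diag β) L` for ANY `S` -/
theorem Fr.BSB (h : Fr A B L β) (S : Mat n) :
    B * S * B = Lᵀ * (Matrix.diagonal β * (L * S * Lᵀ) * Matrix.diagonal β) * L := by
  conv_lhs => rw [h.hB]
  simp only [Matrix.mul_assoc]

theorem gDD_frame (F : Profile) (D : TiltData n) (B : Mat n) (c : Vec n) (L P' : Mat n) :
    gDD F D B c (Lᵀ * P' * L)
      = ((L * Sf F.p (D.A B c) B * Lᵀ) * P' * (L * Sf F.p (D.A B c) B * Lᵀ) * P').trace := by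
  unfold gDD
  have e : Sf F.p (D.A B c) B * (Lᵀ * P' * L) * Sf F.p (D.A B c) B * (Lᵀ * P' * L)
      = (Sf F.p (D.A B c) B * Lᵀ * P' * L * Sf F.p (D.A B c) B * Lᵀ * P') * L := by
    simp only [Matrix.mul_assoc]
  rw [e, Matrix.trace_mul_comm]
  simp only [Matrix.mul_assoc]

theorem fDD_frame (G : Profile) (D : TiltData n) (c : Vec n) (M' P' : Mat n)
    (hM : B * Sf G.p (D.A B c) B * B = Lᵀ * M' * L) :
    fDD G D B c (Lᵀ * P' * L)
      = ∑ a, ∑ b, M' a b *
        (slc (frT L (D.T B c)) a * P' * slc (frT L (D.T B c)) b * P').trace := by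
  unfold fDD
  rw [hM, sum_frT]

theorem sum_diag2 (w : Vec n) (f : Fin n → Fin n → ℝ) :
    ∑ a, ∑ b, (Matrix.diagonal w : Mat n) a b * f a b = ∑ a, w a * f a a := by
  refine Finset.sum_congr rfl fun a _ => ?_
  rw [Finset.sum_eq_single a]
  · rw [Matrix.diagonal_apply_eq]
  · intro l _ hl
    rw [Matrix.diagonal_apply_ne _ (Ne.symm hl), zero_mul]
  · intro h; exact absurd (Finset.mem_univ a) h

/-- `gDD` in the frame is `gg` -/
theorem gDD_gg (F : Profile) (D : TiltData n) {c : Vec n} (h : Fr (D.A B c) B L β)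
    (hA : (D.A B c)ᵀ = D.A B c) (P' : Mat n) : gDD F D B c (Lᵀ * P' * L) = gg F β P' := by
  rw [gDD_frame, Fr.conj_Sf hA h]
  rfl

/-- `fDD` in the frame is `ff` -/
theorem fDD_ff (G : Profile) (D : TiltData n) {c : Vec n} (h : Fr (D.A B c) B L β)
    (hA : (D.A B c)ᵀ = D.A B c) (P' : Mat n) :
    fDD G D B c (Lᵀ * P' * L) = ff G β (frT L (D.T B c)) P' := by
  have hM : B * Sf G.p (D.A B c) B * B
      = Lᵀ * (Matrix.diagonal fun i => wt G (β i)) * L := by
    rw [Fr.BSB h, Fr.conj_Sf hA h, Matrix.diagonal_mul_diagonal, Matrix.diagonal_mul_diagonal]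
    congr 3
    funext i
    unfold wt
    ring
  rw [fDD_frame G D c _ P' hM, sum_diag2 _ (fun a b =>
    (slc (frT L (D.T B c)) a * P' * slc (frT L (D.T B c)) b * P').trace)]
  rfl

theorem fDD_smul (G : Profile) (D : TiltData n) (B : Mat n) (c : Vec n) (P : Mat n) (r : ℝ) :
    fDD G D B c (r • P) = r ^ 2 * fDD G D B c P := by
  unfold fDD
  simp only [Finset.mul_sum, Matrix.mul_smul, Matrix.smul_mul, Matrix.trace_smul, smul_eq_mul]
  refine Finset.sum_congr rfl fun a _ => Finset.sum_congr rfl fun b _ => ?_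
  ring

theorem gDD_smul (F : Profile) (D : TiltData n) (B : Mat n) (c : Vec n) (P : Mat n) (r : ℝ) :
    gDD F D B c (r • P) = r ^ 2 * gDD F D B c P := by
  unfold gDD
  simp only [Matrix.mul_smul, Matrix.smul_mul, Matrix.trace_smul, smul_eq_mul]
  ring

end Vale.Agent.P254.DD
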