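import Vale.Agent.P254.Bdl.B3

/-!
P254, the (DD) chain: interface (helper624).

Two profiles `F`, `G` (see `L.Profile`): `F.h x = x * F.p x = s x`, `G.h x = x * G.p x = om x`.
Frame `Fr A B L β`: `L A Lᵀ = 1`, `B = Lᵀ diag β L`.

`(DD)` : `∑ a, β_a om(β_a) tr (T_a D T_a D) ≤ tr (σ D σ D)`, `σ = diag (s(β_i) / β_i)`.

Clock: `Q = Lᵀ diag q L`, `q_i > 0`, `q_i / q_j ≤ rho (min β)`; `q = 1` is `R = Gam⁻¹`,
`q_i = r (β_i)` is `R = r(Gam) Gam⁻¹` (frame `Q = 1` of board 159). The clock may depend on the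
contact.
-/

set_option autoImplicit false

noncomputable section

namespace Vale.Agent.P254.DD

open Matrix Set Filter Topology
open Vale.Agent.P254.L
open scoped BigOperators

variable {n : ℕ}

/-- slice of a 3-tensor -/
def slc (T : Ten n) (a : Fin n) : Mat n := Matrix.of fun i j => T a i j

/-- weight of the first slot in the frame `A = 1`: `wt x = x om(x) = x² p x` -/
def wt (G : Profile) (x : ℝ) : ℝ := x ^ 2 * G.p x

/-- `S` in the frame: `diag (p (β i))`, `p = s / x` -/
def sg0 (F : Profile) (β : Vec n) : Mat n := Matrix.diagonal fun i => F.p (β i)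

/-- `tr (T_a D T_b D)` -/
def gm (T : Ten n) (D : Mat n) (a b : Fin n) : ℝ := (slc T a * D * slc T b * D).trace

/-- left side of (DD) in the frame -/
def ff (G : Profile) (β : Vec n) (T : Ten n) (D : Mat n) : ℝ :=
  ∑ a, wt G (β a) * gm T D a a

/-- right side of (DD) in the frame -/
def gg (F : Profile) (β : Vec n) (D : Mat n) : ℝ := (sg0 F β * D * sg0 F β * D).trace

/-- the inequality (DD) for `(A, B, T)` -/
def DDIneq (F G : Profile) (A B : Mat n) (T : Ten n) : Prop :=
  ∀ (L : Mat n) (β : Vec n), Fr A B L β → ∀ D : Mat n, D.PosSemidef →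
    ff G β (frT L T) D ≤ gg F β D

/-- target of block (X') -/
def StXdd (F G : Profile) : Prop :=
  ∀ (n : ℕ) (D : TiltData n) (B : Mat n), B.PosDef → ∀ c : Vec n,
    DDIneq F G (D.A B c) B (D.T B c)

/-- first order variation of the first slot weight in the direction `e` -/
def wd (G : Profile) (β : Vec n) (T : Ten n) (e : Fin n) : Mat n :=
  Matrix.of fun a b => β a * β b * (dd1 G.h G.h1 (β a) (β b) * T e a b)

/-- second order variation of the first slot weight in the direction `e` -/
def wg (G : Profile) (β : Vec n) (T : Ten n) (e : Fin n) : Mat n :=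
  Matrix.of fun a b => β a * β b *
    ∑ k, β k * dd2 G.h G.h1 G.h2 (β a) (β k) (β b) * T e a k * T e k b

/-- first order variation of `S` in the direction `e` -/
def sd (F : Profile) (β : Vec n) (T : Ten n) (e : Fin n) : Mat n :=
  Matrix.of fun i j => dd1 F.h F.h1 (β i) (β j) * T e i j

/-- second order variation of `S` in the direction `e` -/
def sg (F : Profile) (β : Vec n) (T : Ten n) (e : Fin n) : Mat n :=
  Matrix.of fun i j => ∑ k, β k * dd2 F.h F.h1 F.h2 (β i) (β k) (β j) * T e i k * T e k j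

/-- derivative of `ff` in the direction `e`, `K e a i j` = fourth cumulant -/
def dff (G : Profile) (β : Vec n) (T : Ten n) (D : Mat n) (K : Fin n → Ten n) (e : Fin n) : ℝ :=
  ∑ a, ∑ b, wd G β T e a b * gm T D a b
    + 2 * ∑ a, wt G (β a) * (slc (K e) a * D * slc T a * D).trace

/-- derivative of `gg` in the direction `e` -/
def dgg (F : Profile) (β : Vec n) (T : Ten n) (D : Mat n) (e : Fin n) : ℝ :=
  2 * (sd F β T e * D * sg0 F β * D).trace

/-- exact contact in the frame -/
structure Contact (F G : Profile) (β : Vec n) (T : Ten n) (D : Mat n) (K : Fin n → Ten n) :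
    Prop where
  hb : ∀ i, β i ∈ Ioo (0 : ℝ) 1
  hT : TSymm T
  hK : KSymm K
  hD : D.PosSemidef
  hD0 : D ≠ 0
  /-- (DD) holds for `T` (all symmetric matrices) -/
  le : ∀ D' : Mat n, D'.IsSymm → ff G β T D' ≤ gg F β D'
  /-- with equality at `D` -/
  eq : ff G β T D = gg F β D
  /-- stationarity in every direction -/
  stat : ∀ e, dff G β T D K e = dgg F β T D e

/-- second order variation of `ff` in the direction `e`, velocity `X` of `D` -/
def V2f (G : Profile) (β : Vec n) (T : Ten n) (D : Mat n) (K : Fin n → Ten n) (e : Fin n)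
    (X : Mat n) : ℝ :=
  ∑ a, ∑ b, wg G β T e a b * gm T D a b
    + 2 * ∑ a, ∑ b, wd G β T e a b * ((slc (K e) a * D * slc T b * D).trace
        + (slc T a * X * slc T b * D).trace)
    + ∑ a, wt G (β a) * ((slc (K e) a * D * slc (K e) a * D).trace
        + 2 * (slc (K e) a * X * slc T a * D).trace
        + 2 * (slc (K e) a * D * slc T a * X).trace
        + (slc T a * X * slc T a * X).trace)

/-- second order variation of `gg` in the direction `e`, velocity `X` of `D` -/
def V2g (F : Profile) (β : Vec n) (T : Ten n) (D : Mat n) (e : Fin n) (X : Mat n) : ℝ :=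
  2 * (sg F β T e * D * sg0 F β * D).trace
    + (sd F β T e * D * sd F β T e * D).trace
    + 4 * (sd F β T e * D * sg0 F β * X).trace
    + (sg0 F β * X * sg0 F β * X).trace

/-- second order variation of `ff - gg` in the direction `e`, velocity `X` of `D` -/
def V2 (F G : Profile) (β : Vec n) (T : Ten n) (D : Mat n) (K : Fin n → Ten n) (e : Fin n)
    (X : Mat n) : ℝ := V2f G β T D K e X - V2g F β T D e X

/-- flow derivative of the weight `wt` -/
def wfl (G : Profile) (x : ℝ) : ℝ := 2 * x * G.p x + x ^ 2 * (- G.p x + (1 - x) * G.p1 x)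

/-- flow derivative of `p` -/
def sfl (F : Profile) (x : ℝ) : ℝ := - F.p x + (1 - x) * F.p1 x

/-- first order (reaction) part of `ff` along the clock `diag q` -/
def reactf (G : Profile) (β : Vec n) (T : Ten n) (D : Mat n) (q : Vec n) : ℝ :=
  ∑ a, q a * (wfl G (β a) - 2 * wt G (β a)) * gm T D a a
    - 4 * ∑ a, wt G (β a) * (Matrix.diagonal q * slc T a * D * slc T a * D).trace

/-- first order (reaction) part of `gg` along the clock `diag q` -/
def reactg (F : Profile) (β : Vec n) (D : Mat n) (q : Vec n) : ℝ :=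
  2 * ((Matrix.diagonal fun i => q i * sfl F (β i)) * D * sg0 F β * D).trace

/-- the first order (reaction) part of the drift, clock `diag q` -/
def react (F G : Profile) (β : Vec n) (T : Ten n) (D : Mat n) (q : Vec n) : ℝ :=
  reactf G β T D q - reactg F β D q

/-- the drift of `ff - gg` at a contact -/
def drift (F G : Profile) (β : Vec n) (T : Ten n) (D : Mat n) (K : Fin n → Ten n) (q : Vec n)
    (X : Fin n → Mat n) : ℝ :=
  react F G β T D q + ∑ e, q e * V2 F G β T D K e (X e)

/-- **the algebraic lemma** (the only open input of the chain): at every exact contact there are a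
clock `q > 0`, `q_i ≤ rho (min β) q_j`, and velocities `X e` of `D` such that the drift is `≥ 0` -/
def ALdd (F G : Profile) (rho : ℝ → ℝ) : Prop :=
  ∀ (n : ℕ) (β : Vec n) (T : Ten n) (D : Mat n) (K : Fin n → Ten n), Contact F G β T D K →
    ∃ (q : Vec n) (X : Fin n → Mat n), (∀ i, 0 < q i) ∧
      (∀ x ∈ Ioo (0 : ℝ) 1, (∀ k, x ≤ β k) → ∀ i j, q i ≤ rho x * q j) ∧
      (∀ e, (X e).IsSymm) ∧ 0 ≤ drift F G β T D K q X

/-- admissible clock bounds: `rho x ≤ 1 + C (1 - x)` away from `0`. For `q_i = r (β_i)` with `r`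
positive and `C^1` on `(0,1]` such a `rho` exists. -/
def RhoOK (rho : ℝ → ℝ) : Prop :=
  ∀ x0 : ℝ, 0 < x0 → ∃ C : ℝ, ∀ x ∈ Ioo (0 : ℝ) 1, x0 ≤ x → rho x ≤ 1 + C * (1 - x)

/-- growth conditions on the profiles: `s(x)/x ≥ κ (1-x)`, `x om(x) = o(1/(1-x))` and bounded
at `0` -/
structure GrowthOK (F G : Profile) : Prop where
  low : ∃ κ : ℝ, 0 < κ ∧ ∀ x ∈ Ioo (0 : ℝ) 1, κ * (1 - x) ≤ F.p x
  up : ∀ δ : ℝ, 0 < δ → ∃ C : ℝ, ∀ x ∈ Ioo (0 : ℝ) 1, wt G x ≤ C + δ / (1 - x)

end Vale.Agent.P254.DD
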