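import Vale.Agent.P254.DD.Func
import Vale.Agent.P254.H452.XCont

/-!
P254, the (DD) chain: jets of `L S Lᵀ` and of the cumulants in the frame `L A Lᵀ = 1` (helper624).
-/

set_option autoImplicit false

noncomputable section

namespace Vale.Agent.P254.DD

open Matrix Polynomial Set Filter Topology Asymptotics
open Vale.Agent.P254.L Vale.Agent.P254.S526 Vale.Agent.P254.Z546
open scoped BigOperators

variable {n : ℕ}

/-- second order jet of `S` in the frame, `B` fixed -/
theorem Sf_jet2 (F : Profile) {A : ℝ → Mat n} {A0 B L X Y : Mat n} {β : Vec n}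
    (h0 : Fr A0 B L β) (hb : ∀ i, β i ∈ Ioo (0 : ℝ) 1) (hs : A0ᵀ = A0)
    (hA : ∀ i j, J2 (𝓝 0) (fun t => A t i j) (A0 i j) (X i j) (Y i j))
    (hfr : ∀ᶠ t in 𝓝 (0 : ℝ), (A t)ᵀ = A t ∧ ∃ L β, Fr (A t) B L β) (i j : Fin n) :
    J2 (𝓝 0) (fun t => (L * Sf F.p (A t) B * Lᵀ) i j) (sg0 F β i j)
      (dd1 F.h F.h1 (β i) (β j) * (L * X * Lᵀ) i j)
      (dd1 F.h F.h1 (β i) (β j) * (L * Y * Lᵀ) i j
        + ∑ k, β k * dd2 F.h F.h1 F.h2 (β i) (β k) (β j)
          * (L * X * Lᵀ) i k * (L * X * Lᵀ) k j) := by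
  obtain ⟨q, hq⟩ := X452.exists_ip (F := F) β
  have hm : ∀ i, β i ∈ Set.range β := fun i => ⟨i, rfl⟩
  have hC : Curve (𝓝 0) A (fun _ => B) A0 B :=
    { hl := le_rfl
      symm0 := hs
      hA := fun i j => ((hA i j).toJ1 le_rfl).sub_isBigO
      hB := fun i j => by simpa using isBigO_zero (fun t : ℝ => t) (𝓝 0)
      fr := hfr }
  have hP := fun i j => hC.Sf_poly h0 (f := F.p) (q := q) (fun i =>
    rho_o (f1 := F.p1) (f2 := F.p2 (β i))
      (X452.ev_nhds (hb i) F.d1) (F.d2 _ (hb i)) (hq _ (hm i)).1 (hq _ (hm i)).2.1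
        (hq _ (hm i)).2.2) i j
  have hP' := X452.littleO_conj L (M := fun t => Sf F.p (A t) B - A t * aeval (B * A t) q)
    (fun i j => (hP i j).congr_left fun t => by rw [Matrix.sub_apply]) i j
  have hJ := SQ_jet2 le_rfl q (a := fun _ => 1) (b' := β)
    (At := fun t => L * A t * Lᵀ) (X₁ := L * X * Lᵀ) (X₂ := L * Y * Lᵀ) (l := 𝓝 0)
    (fun i j => (J2_conj L hA i j).congr_coef
      (by rw [h0.hA, ← Matrix.diagonal_one]) rfl rfl) i j
  have e : ∀ t, (L * Sf F.p (A t) B * Lᵀ) i j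
      = (L * (Sf F.p (A t) B - A t * aeval (B * A t) q) * Lᵀ) i j
        + (L * A t * Lᵀ * aeval (Matrix.diagonal β * (L * A t * Lᵀ)) q) i j := by
    intro t
    rw [← X452.conj_aeval h0.hB q, Matrix.mul_sub, Matrix.sub_mul, Matrix.sub_apply]
    ring
  have hJ' : J2 (𝓝 0) (fun t => (L * A t * Lᵀ * aeval (Matrix.diagonal β
        * (L * A t * Lᵀ)) q) i j) (sg0 F β i j)
      (dd1 F.h F.h1 (β i) (β j) * (L * X * Lᵀ) i j)
      (dd1 F.h F.h1 (β i) (β j) * (L * Y * Lᵀ) i j
        + ∑ k, β k * dd2 F.h F.h1 F.h2 (β i) (β k) (β j)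
          * (L * X * Lᵀ) i k * (L * X * Lᵀ) k j) := by
    refine hJ.congr_coef ?_ ?_ ?_
    · unfold sg0
      congr 1
      funext i
      rw [one_mul, one_mul, (hq _ (hm i)).1]
    · rw [one_mul, one_mul, hq.pd1_h (hm i) (hm j)]
    · rw [one_mul, one_mul, hq.pd1_h (hm i) (hm j)]
      congr 1
      refine Finset.sum_congr rfl fun k _ => ?_
      rw [one_mul, hq.pd2_h (hm i) (hm k) (hm j)]
  refine (IsLittleO.add hP' hJ').congr_left fun t => ?_
  simp only [e t]
  ring

/-- first order jet of `S` in the frame, along `B + t Lᵀ Q L` -/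
theorem Sf_jet1 (F : Profile) {l : Filter ℝ} (hl : l ≤ 𝓝 0) {A : ℝ → Mat n}
    {A0 B L X Q : Mat n} {β : Vec n}
    (h0 : Fr A0 B L β) (hb : ∀ i, β i ∈ Ioo (0 : ℝ) 1) (hs : A0ᵀ = A0)
    (hA : ∀ i j, J1 l (fun t => A t i j) (A0 i j) (X i j))
    (hfr : ∀ᶠ t in l, (A t)ᵀ = A t ∧ ∃ L' β', Fr (A t) (B + t • (Lᵀ * Q * L)) L' β')
    (i j : Fin n) :
    J1 l (fun t => (L * Sf F.p (A t) (B + t • (Lᵀ * Q * L)) * Lᵀ) i j) (sg0 F β i j)
      (dd1 F.h F.h1 (β i) (β j) * (L * X * Lᵀ) i j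
        + dd1 F.p F.p1 (β i) (β j) * Q i j) := by
  obtain ⟨q, hq⟩ := X452.exists_ip (F := F) β
  have hm : ∀ i, β i ∈ Set.range β := fun i => ⟨i, rfl⟩
  have hC : Curve l A (fun t => B + t • (Lᵀ * Q * L)) A0 B :=
    { hl := hl
      symm0 := hs
      hA := fun i j => (hA i j).sub_isBigO
      hB := fun i j => by
        have h3 : (fun t : ℝ => (Lᵀ * Q * L) i j * t) =O[l] fun t => t :=
          (isBigO_refl _ _).const_mul_left _
        refine h3.congr_left fun t => ?_
        simp only [Matrix.add_apply, Matrix.smul_apply, smul_eq_mul]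
        ring
      fr := hfr }
  have hP := fun i j => (hC.Sf_poly h0 (f := F.p) (q := q) (fun i =>
    rho_o (f1 := F.p1) (f2 := F.p2 (β i))
      (X452.ev_nhds (hb i) F.d1) (F.d2 _ (hb i)) (hq _ (hm i)).1 (hq _ (hm i)).2.1
        (hq _ (hm i)).2.2) i j).trans_isBigO (sq_isLittleO hl).isBigO
  have hP' := X452.littleO_conj L (M := fun t => Sf F.p (A t) (B + t • (Lᵀ * Q * L))
      - A t * aeval ((B + t • (Lᵀ * Q * L)) * A t) q)
    (fun i j => (hP i j).congr_left fun t => by rw [Matrix.sub_apply]) i j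
  have hB' : ∀ t : ℝ, B + t • (Lᵀ * Q * L)
      = Lᵀ * (Matrix.diagonal β + t • Q) * L := by
    intro t
    conv_lhs => rw [h0.hB]
    rw [Matrix.mul_add, Matrix.add_mul, Matrix.mul_smul, Matrix.smul_mul]
  have hJ := SQ_jet1 hl q (a := fun _ => 1) (b' := β)
    (At := fun t => L * A t * Lᵀ) (Bt := fun t => Matrix.diagonal β + t • Q)
    (X₁ := L * X * Lᵀ) (Z₁ := Q)
    (fun i j => (J1_conj L hA i j).congr_coef (by rw [h0.hA, ← Matrix.diagonal_one]) rfl)
    (fun i j => by
      refine ((J1.const (Matrix.diagonal β i j)).add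
        (J1.id.mul_const (Q i j))).congr
        (Eventually.of_forall fun t => ?_) ?_ ?_
      · rfl
      · ring
      · ring) i j
  have e : ∀ t : ℝ, (L * Sf F.p (A t) (B + t • (Lᵀ * Q * L)) * Lᵀ) i j
      = (L * (Sf F.p (A t) (B + t • (Lᵀ * Q * L))
          - A t * aeval ((B + t • (Lᵀ * Q * L)) * A t) q) * Lᵀ) i j
        + (L * A t * Lᵀ * aeval ((Matrix.diagonal β + t • Q)
            * (L * A t * Lᵀ)) q) i j := by
    intro t
    rw [← X452.conj_aeval (hB' t) q, Matrix.mul_sub, Matrix.sub_mul, Matrix.sub_apply]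
    ring
  have hJ' : J1 l (fun t => (L * A t * Lᵀ * aeval ((Matrix.diagonal β + t • Q)
        * (L * A t * Lᵀ)) q) i j) (sg0 F β i j)
      (dd1 F.h F.h1 (β i) (β j) * (L * X * Lᵀ) i j
        + dd1 F.p F.p1 (β i) (β j) * Q i j) := by
    refine hJ.congr_coef ?_ ?_
    · unfold sg0
      congr 1
      funext i
      rw [one_mul, one_mul, (hq _ (hm i)).1]
    · rw [one_mul, one_mul, hq.pd1_h (hm i) (hm j), hq.pd1_p (hm i) (hm j)]
      ring
  refine (IsLittleO.add hP' hJ').congr_left fun t => ?_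
  simp only [e t]
  ring

variable {D : TiltData n} {B : Mat n} {c : Vec n} {L : Mat n} {β : Vec n}

/-- `h[β_i,β_j] (KL)_ij`, the part of the second order jet which cancels with the flow -/
def hKK (F : Profile) (D : TiltData n) (B : Mat n) (c : Vec n) (L : Mat n) (β : Vec n)
    (e : Fin n) : Mat n :=
  Matrix.of fun i j => dd1 F.h F.h1 (β i) (β j) * X452.KL D B c L e i j

theorem S_jet2 (F : Profile) (hB : B.PosDef) (h : Fr (D.A B c) B L β)
    (hb : ∀ i, β i ∈ Ioo (0 : ℝ) 1) (e i j : Fin n) :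
    J2 (𝓝 0) (fun t : ℝ => (L * Sf F.p (D.A B (c + t • X452.dir L e)) B * Lᵀ) i j) (sg0 F β i j)
      (sd F β (frT L (D.T B c)) e i j)
      (((1 / 2 : ℝ) • hKK F D B c L β e + sg F β (frT L (D.T B c)) e) i j) := by
  have hs : TSymm (frT L (D.T B c)) := X452.frT_symm L (D.T_symm B c)
  have hrot : ∀ i j, frT L (D.T B c) i j e = frT L (D.T B c) e i j := by
    intro i j
    rw [hs.2 i j e, hs.1 i e j]
  refine (Sf_jet2 F h hb (X452.A_symm' D B c) (fun i j => X452.A_jet2 hB c L e i j)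
    (Eventually.of_forall
    fun t => ⟨X452.A_symm' D _ _, exists_Fr (D.posA B hB.posSemidef _) hB.isHermitian⟩)
    i j).congr_coef rfl ?_ ?_
  · rw [X452.conj_TTm, hrot]; rfl
  · simp only [X452.conj_TTm, hrot, Matrix.mul_smul, Matrix.smul_mul, Matrix.smul_apply,
      smul_eq_mul, Matrix.add_apply, hKK, sg, Matrix.of_apply, X452.KL]
    congr 1
    ring

/-- entries of `Lᵀ diag q L` -/
theorem Q_entry (L : Mat n) (q : Vec n) (k l : Fin n) :
    (Lᵀ * Matrix.diagonal q * L) k l = ∑ a, q a * (L a k * L a l) := by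
  rw [Matrix.mul_apply]
  refine Finset.sum_congr rfl fun a _ => ?_
  rw [Matrix.mul_diagonal, Matrix.transpose_apply]
  ring

theorem Q_psd (L : Mat n) {q : Vec n} (hq : ∀ i, 0 ≤ q i) :
    (Lᵀ * Matrix.diagonal q * L).PosSemidef := by
  have h1 : (Matrix.diagonal q : Mat n).PosSemidef := Matrix.posSemidef_diagonal_iff.2 hq
  have h2 := h1.mul_mul_conjTranspose_same Lᵀ
  rwa [Matrix.conjTranspose_eq_transpose_of_trivial, Matrix.transpose_transpose] at h2

/-- `L A Q = diag q L` -/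
theorem LAQ (h : Fr (D.A B c) B L β) (q : Vec n) :
    L * (D.A B c * (Lᵀ * Matrix.diagonal q * L)) = Matrix.diagonal q * L := by
  calc L * (D.A B c * (Lᵀ * Matrix.diagonal q * L))
      = (L * D.A B c * Lᵀ) * Matrix.diagonal q * L := by simp only [Matrix.mul_assoc]
    _ = _ := by rw [h.hA, Matrix.one_mul]

/-- derivative of `A` along the flow -/
theorem A_jet1 (hB : B.PosDef) {q : Vec n} (hq : ∀ i, 0 ≤ q i) (i j : Fin n) :
    J1 (𝓝[≥] 0) (fun t : ℝ => D.A (B + t • (Lᵀ * Matrix.diagonal q * L))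
        (c + t • ((Lᵀ * Matrix.diagonal q * L) *ᵥ D.mu B c)) i j) (D.A B c i j)
      ((-(D.A B c * (Lᵀ * Matrix.diagonal q * L) * D.A B c)
        - (1 / 2 : ℝ) • ∑ a, q a • X452.KKm L (D.K B c) a) i j) := by
  have h1 := J1.of_hasDerivWithinAt (D.fA B hB.posSemidef c (Lᵀ * Matrix.diagonal q * L)
    (Q_psd L hq) i j)
  simp only [zero_smul, add_zero] at h1
  refine h1.congr_coef rfl ?_
  simp only [Matrix.sub_apply, Matrix.neg_apply, Matrix.smul_apply, Matrix.sum_apply, X452.KKm,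
    Matrix.of_apply, smul_eq_mul]
  congr 2
  simp only [Q_entry, Finset.sum_mul, Finset.mul_sum]
  have e1 : ∀ k, ∑ l, ∑ a, q a * (L a k * L a l) * D.K B c i j k l
      = ∑ a, ∑ l, q a * (L a k * L a l) * D.K B c i j k l := fun k => Finset.sum_comm
  simp only [e1]
  rw [Finset.sum_comm]
  refine Finset.sum_congr rfl fun a _ => Finset.sum_congr rfl fun k _ =>
    Finset.sum_congr rfl fun l _ => ?_
  ring

theorem S_jet1 (F : Profile) (hB : B.PosDef) (h : Fr (D.A B c) B L β)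
    (hb : ∀ i, β i ∈ Ioo (0 : ℝ) 1) {q : Vec n} (hq : ∀ i, 0 ≤ q i) (i j : Fin n) :
    J1 (𝓝[≥] 0) (fun t : ℝ => (L * Sf F.p (D.A (B + t • (Lᵀ * Matrix.diagonal q * L))
        (c + t • ((Lᵀ * Matrix.diagonal q * L) *ᵥ D.mu B c)))
        (B + t • (Lᵀ * Matrix.diagonal q * L)) * Lᵀ) i j) (sg0 F β i j)
      (((Matrix.diagonal fun i => q i * sfl F (β i))
        - (1 / 2 : ℝ) • ∑ e, q e • hKK F D B c L β e) i j) := by
  have hl : 𝓝[≥] (0 : ℝ) ≤ 𝓝 0 := nhdsWithin_le_nhds
  have hpd : ∀ t : ℝ, 0 ≤ t → (B + t • (Lᵀ * Matrix.diagonal q * L)).PosDef := fun t ht =>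
    hB.add_posSemidef ((Q_psd L hq).smul ht)
  have hS := Sf_jet1 F hl h hb (X452.A_symm' D B c) (fun i j => A_jet1 hB hq i j)
    (Q := Matrix.diagonal q) (by
    filter_upwards [self_mem_nhdsWithin] with t ht
    exact ⟨X452.A_symm' D _ _,
      exists_Fr (D.posA _ (hpd t ht).posSemidef _) (hpd t ht).isHermitian⟩) i j
  refine hS.congr_coef rfl ?_
  have hLX : L * (-(D.A B c * (Lᵀ * Matrix.diagonal q * L) * D.A B c)
        - (1 / 2 : ℝ) • ∑ a, q a • X452.KKm L (D.K B c) a) * Lᵀ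
      = -(Matrix.diagonal q) - (1 / 2 : ℝ) • ∑ a, q a • X452.KL D B c L a := by
    rw [Matrix.mul_sub, Matrix.sub_mul, Matrix.mul_neg, Matrix.neg_mul]
    have e1 : L * (D.A B c * (Lᵀ * Matrix.diagonal q * L) * D.A B c) * Lᵀ
        = Matrix.diagonal q := by
      calc L * (D.A B c * (Lᵀ * Matrix.diagonal q * L) * D.A B c) * Lᵀ
          = (L * D.A B c * Lᵀ) * Matrix.diagonal q * (L * D.A B c * Lᵀ) := by
            simp only [Matrix.mul_assoc]
        _ = _ := by rw [h.hA, Matrix.one_mul, Matrix.mul_one]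
    rw [e1]
    simp only [Matrix.mul_smul, Matrix.smul_mul, Matrix.mul_sum, Matrix.sum_mul, X452.KL]
  rw [hLX]
  simp only [Matrix.sub_apply, Matrix.neg_apply, Matrix.smul_apply, Matrix.sum_apply,
    smul_eq_mul, hKK, Matrix.of_apply]
  have e2 : ∑ a, q a * (dd1 F.h F.h1 (β i) (β j) * X452.KL D B c L a i j)
      = dd1 F.h F.h1 (β i) (β j) * ∑ a, q a * X452.KL D B c L a i j := by
    rw [Finset.mul_sum]
    exact Finset.sum_congr rfl fun a _ => by ring
  rw [e2]
  rcases eq_or_ne i j with hij | hij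
  · subst hij
    simp only [Matrix.diagonal_apply_eq, dd1, if_true, sfl, Profile.h1]
    ring
  · simp only [Matrix.diagonal_apply_ne _ hij]
    ring

theorem slot1 (L M : Mat n) {q : Vec n} (hM : ∀ i l, ∑ p, L i p * M p l = q i * L i l)
    (T : Ten n) (i j k : Fin n) :
    ∑ a, ∑ b, ∑ c, L i a * L j b * L k c * ∑ l, M a l * T l b c = q i * frT L T i j k := by
  unfold frT
  simp only [Finset.mul_sum]
  calc ∑ a, ∑ b, ∑ c, ∑ l, L i a * L j b * L k c * (M a l * T l b c)
      = ∑ a, ∑ l, ∑ b, ∑ c, L i a * L j b * L k c * (M a l * T l b c) := by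
        refine Finset.sum_congr rfl fun a _ => ?_
        calc ∑ b, ∑ c, ∑ l, L i a * L j b * L k c * (M a l * T l b c)
            = ∑ b, ∑ l, ∑ c, L i a * L j b * L k c * (M a l * T l b c) :=
              Finset.sum_congr rfl fun b _ => Finset.sum_comm
          _ = ∑ l, ∑ b, ∑ c, L i a * L j b * L k c * (M a l * T l b c) := Finset.sum_comm
          _ = _ := rfl
    _ = ∑ l, ∑ a, ∑ b, ∑ c, L i a * L j b * L k c * (M a l * T l b c) := Finset.sum_comm
    _ = ∑ l, ∑ b, ∑ c, ∑ a, L i a * L j b * L k c * (M a l * T l b c) := by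
        refine Finset.sum_congr rfl fun l _ => ?_
        rw [Finset.sum_comm]
        exact Finset.sum_congr rfl fun b _ => Finset.sum_comm
    _ = _ := by
        refine Finset.sum_congr rfl fun l _ => Finset.sum_congr rfl fun b _ =>
          Finset.sum_congr rfl fun c _ => ?_
        have e : ∑ a, L i a * L j b * L k c * (M a l * T l b c)
            = (∑ a, L i a * M a l) * (L j b * L k c * T l b c) := by
          rw [Finset.sum_mul]
          exact Finset.sum_congr rfl fun a _ => by ring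
        rw [e, hM]; ring

theorem frT_sumq (L : Mat n) (q : Vec n) (Z : Fin n → Ten n) (i j k : Fin n) :
    frT L (fun i j k => ∑ e, q e * Z e i j k) i j k = ∑ e, q e * frT L (Z e) i j k := by
  unfold frT
  simp only [Finset.mul_sum]
  calc ∑ a, ∑ b, ∑ c, ∑ e, L i a * L j b * L k c * (q e * Z e a b c)
      = ∑ a, ∑ b, ∑ e, ∑ c, L i a * L j b * L k c * (q e * Z e a b c) :=
        Finset.sum_congr rfl fun a _ => Finset.sum_congr rfl fun b _ => Finset.sum_comm
    _ = ∑ a, ∑ e, ∑ b, ∑ c, L i a * L j b * L k c * (q e * Z e a b c) :=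
        Finset.sum_congr rfl fun a _ => Finset.sum_comm
    _ = ∑ e, ∑ a, ∑ b, ∑ c, L i a * L j b * L k c * (q e * Z e a b c) := Finset.sum_comm
    _ = _ := by
        refine Finset.sum_congr rfl fun e _ => Finset.sum_congr rfl fun a _ =>
          Finset.sum_congr rfl fun b _ => Finset.sum_congr rfl fun c _ => ?_
        ring

/-- derivative of the third cumulant along the flow, in the frame -/
theorem T_jet1 (hB : B.PosDef) (h : Fr (D.A B c) B L β) {q : Vec n} (hq : ∀ i, 0 ≤ q i)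
    (i j k : Fin n) :
    J1 (𝓝[≥] 0) (fun t : ℝ => frT L (D.T (B + t • (Lᵀ * Matrix.diagonal q * L))
        (c + t • ((Lᵀ * Matrix.diagonal q * L) *ᵥ D.mu B c))) i j k)
      (frT L (D.T B c) i j k)
      (-(q i + q j + q k) * frT L (D.T B c) i j k
        - 1 / 2 * ∑ e, q e * X452.fr5 L (D.R B c) e i j k) := by
  set AQ : Mat n := D.A B c * (Lᵀ * Matrix.diagonal q * L) with hAQ
  have hT : ∀ i j k, J1 (𝓝[≥] 0) (fun t : ℝ => D.T (B + t • (Lᵀ * Matrix.diagonal q * L))
        (c + t • ((Lᵀ * Matrix.diagonal q * L) *ᵥ D.mu B c)) i j k) (D.T B c i j k)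
      ((fun i j k => -(∑ l, (AQ i l * D.T B c l j k + AQ j l * D.T B c i l k
        + AQ k l * D.T B c i j l)) - 1 / 2 * ∑ a, q a *
        ∑ l, L a l * ∑ r, L a r * D.R B c i j k l r) i j k) := by
    intro i j k
    have h1 := J1.of_hasDerivWithinAt (D.fT B hB.posSemidef c (Lᵀ * Matrix.diagonal q * L)
      (Q_psd L hq) i j k)
    simp only [zero_smul, add_zero] at h1
    refine h1.congr_coef rfl ?_
    simp only [hAQ]
    congr 2
    simp only [Q_entry, Finset.sum_mul, Finset.mul_sum]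
    have e1 : ∀ l, ∑ r, ∑ a, q a * (L a l * L a r) * D.R B c i j k l r
        = ∑ a, ∑ r, q a * (L a l * L a r) * D.R B c i j k l r := fun k => Finset.sum_comm
    simp only [e1]
    rw [Finset.sum_comm]
    refine Finset.sum_congr rfl fun a _ => Finset.sum_congr rfl fun l _ =>
      Finset.sum_congr rfl fun r _ => ?_
    ring
  refine (X452.frT_jet1 L hT i j k).congr_coef rfl ?_
  have hM : ∀ i l, ∑ p, L i p * AQ p l = q i * L i l := by
    intro i l
    have := congrFun (congrFun (LAQ (c := c) h q) i) l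
    rw [Matrix.diagonal_mul, Matrix.mul_apply] at this
    exact this
  have hTs := D.T_symm B c
  have s1 := slot1 L AQ hM (D.T B c) i j k
  have s2 : ∑ a, ∑ b, ∑ c', L i a * L j b * L k c' * ∑ l, AQ b l * D.T B c a l c'
      = q j * frT L (D.T B c) i j k := by
    have h1 := slot1 L AQ hM (D.T B c) j i k
    rw [(X452.frT_symm L hTs).1 j i k, Finset.sum_comm] at h1
    rw [← h1]
    refine Finset.sum_congr rfl fun a _ => Finset.sum_congr rfl fun b _ =>
      Finset.sum_congr rfl fun c' _ => ?_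
    have : ∀ l, D.T B c a l c' = D.T B c l a c' := fun l => hTs.1 a l c'
    simp only [this]
    ring
  have s3 : ∑ a, ∑ b, ∑ c', L i a * L j b * L k c' * ∑ l, AQ c' l * D.T B c a b l
      = q k * frT L (D.T B c) i j k := by
    have h1 := slot1 L AQ hM (D.T B c) k i j
    have h2 : frT L (D.T B c) k i j = frT L (D.T B c) i j k := by
      rw [(X452.frT_symm L hTs).1 k i j, (X452.frT_symm L hTs).2 i k j]
    rw [h2] at h1
    rw [← h1]
    have h3 : ∑ a, ∑ b, ∑ c', L k a * L i b * L j c' * ∑ l, AQ a l * D.T B c l b c'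
        = ∑ b, ∑ c', ∑ a, L k a * L i b * L j c' * ∑ l, AQ a l * D.T B c l b c' := by
      rw [Finset.sum_comm]
      exact Finset.sum_congr rfl fun b _ => Finset.sum_comm
    rw [h3]
    refine Finset.sum_congr rfl fun a _ => Finset.sum_congr rfl fun b _ =>
      Finset.sum_congr rfl fun c' _ => ?_
    have : ∀ l, D.T B c a b l = D.T B c l a b := fun l => by
      rw [hTs.2 a b l, hTs.1 a l b]
    simp only [this]
    ring
  have s4 := frT_sumq L q (fun e i j k => ∑ l, L e l * ∑ r, L e r * D.R B c i j k l r) i j k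
  have e : frT L (fun i j k => -(∑ l, (AQ i l * D.T B c l j k + AQ j l * D.T B c i l k
        + AQ k l * D.T B c i j l)) - 1 / 2 * ∑ a, q a *
        ∑ l, L a l * ∑ r, L a r * D.R B c i j k l r) i j k
      = -((∑ a, ∑ b, ∑ c', L i a * L j b * L k c' * ∑ l, AQ a l * D.T B c l b c')
        + (∑ a, ∑ b, ∑ c', L i a * L j b * L k c' * ∑ l, AQ b l * D.T B c a l c')
        + (∑ a, ∑ b, ∑ c', L i a * L j b * L k c' * ∑ l, AQ c' l * D.T B c a b l))
        - 1 / 2 * frT L (fun i j k => ∑ e, q e *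
          (∑ l, L e l * ∑ r, L e r * D.R B c i j k l r)) i j k := by
    unfold frT
    rw [← Finset.sum_add_distrib, ← Finset.sum_add_distrib, ← Finset.sum_neg_distrib,
      Finset.mul_sum, ← Finset.sum_sub_distrib]
    refine Finset.sum_congr rfl fun a _ => ?_
    rw [← Finset.sum_add_distrib, ← Finset.sum_add_distrib, ← Finset.sum_neg_distrib,
      Finset.mul_sum, ← Finset.sum_sub_distrib]
    refine Finset.sum_congr rfl fun b _ => ?_
    rw [← Finset.sum_add_distrib, ← Finset.sum_add_distrib, ← Finset.sum_neg_distrib,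
      Finset.mul_sum, ← Finset.sum_sub_distrib]
    refine Finset.sum_congr rfl fun c' _ => ?_
    simp only [Finset.sum_add_distrib]
    ring
  rw [e, s1, s2, s3, s4]
  unfold X452.fr5
  ring

end Vale.Agent.P254.DD
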