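import Vale.Agent.P254.DD.JetG

/-!
P254, the (DD) chain: jets of `fDD` (helper624).
-/

set_option autoImplicit false

noncomputable section

namespace Vale.Agent.P254.DD

open Matrix Polynomial Set Filter Topology Asymptotics
open Vale.Agent.P254.L Vale.Agent.P254.S526 Vale.Agent.P254.Z546
open scoped BigOperators

variable {n : ℕ} {l : Filter ℝ}
variable {D : TiltData n} {B : Mat n} {c : Vec n} {L : Mat n} {β : Vec n}

/-- the part of the second order jet of `fDD` which cancels with the flow -/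
def kf (G : Profile) (D : TiltData n) (B : Mat n) (c : Vec n) (L : Mat n) (β : Vec n)
    (P : Mat n) (e : Fin n) : ℝ :=
  1 / 2 * ∑ a, ∑ b, β a * β b * hKK G D B c L β e a b * gm (frT L (D.T B c)) P a b
    + ∑ a, wt G (β a) * (slc (X452.fr5 L (D.R B c) e) a * P * slc (frT L (D.T B c)) a * P).trace

/-- general second order expansion of the double sum -/
theorem fsum_jet2 (hl : l ≤ 𝓝 0) {M : ℝ → Mat n} {M0 M1 M2 : Mat n} (hM : MJ2 l M M0 M1 M2)
    {U : Fin n → ℝ → Mat n} {U0 U1 U2 : Fin n → Mat n}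
    (hU : ∀ a, MJ2 l (U a) (U0 a) (U1 a) (U2 a)) (P X : Mat n) :
    J2 l (fun t => ∑ a, ∑ b, M t a b * (U a t * (P + t • X) * U b t * (P + t • X)).trace)
      (∑ a, ∑ b, M0 a b * (U0 a * P * U0 b * P).trace)
      (∑ a, ∑ b, (M0 a b * ((U0 a * P * U0 b * X).trace + (U0 a * P * U1 b * P).trace
          + (U0 a * X * U0 b * P).trace + (U1 a * P * U0 b * P).trace)
        + M1 a b * (U0 a * P * U0 b * P).trace))
      (∑ a, ∑ b, (M0 a b * ((U0 a * P * U1 b * X).trace + (U0 a * X * U0 b * X).trace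
          + (U1 a * P * U0 b * X).trace + (U0 a * P * U2 b * P).trace
          + (U0 a * X * U1 b * P).trace + (U1 a * P * U1 b * P).trace
          + (U1 a * X * U0 b * P).trace + (U2 a * P * U0 b * P).trace)
        + M1 a b * ((U0 a * P * U0 b * X).trace + (U0 a * P * U1 b * P).trace
          + (U0 a * X * U0 b * P).trace + (U1 a * P * U0 b * P).trace)
        + M2 a b * (U0 a * P * U0 b * P).trace)) := by
  have hL := MJ2.lin (l := l) P X
  refine (J2.sum Finset.univ (fun a _ => J2.sum Finset.univ (fun b _ =>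
    (hM a b).mul hl ((((hU a).mul hl hL).mul hl (hU b)).mul hl hL).trace))).congr_coef rfl ?_ ?_
  · refine Finset.sum_congr rfl fun a _ => Finset.sum_congr rfl fun b _ => ?_
    simp only [Matrix.add_mul, Matrix.trace_add]
    ring
  · refine Finset.sum_congr rfl fun a _ => Finset.sum_congr rfl fun b _ => ?_
    simp only [Matrix.add_mul, Matrix.trace_add, Matrix.mul_zero, zero_add]
    ring

/-- general first order expansion of the double sum -/
theorem fsum_jet1 (hl : l ≤ 𝓝 0) {M : ℝ → Mat n} {M0 M1 : Mat n} (hM : MJ1 l M M0 M1)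
    {U : Fin n → ℝ → Mat n} {U0 U1 : Fin n → Mat n}
    (hU : ∀ a, MJ1 l (U a) (U0 a) (U1 a)) (P : Mat n) :
    J1 l (fun t => ∑ a, ∑ b, M t a b * (U a t * P * U b t * P).trace)
      (∑ a, ∑ b, M0 a b * (U0 a * P * U0 b * P).trace)
      (∑ a, ∑ b, (M0 a b * ((U0 a * P * U1 b * P).trace + (U1 a * P * U0 b * P).trace)
        + M1 a b * (U0 a * P * U0 b * P).trace)) := by
  have hL := MJ1.const (l := l) P
  refine (J1.sum Finset.univ (fun a _ => J1.sum Finset.univ (fun b _ =>
    (hM a b).mul hl ((((hU a).mul hl hL).mul hl (hU b)).mul hl hL).trace))).congr_coef rfl ?_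
  refine Finset.sum_congr rfl fun a _ => Finset.sum_congr rfl fun b _ => ?_
  simp only [Matrix.add_mul, Matrix.trace_add, Matrix.mul_zero, zero_add]

theorem wd_symm (G : Profile) (β : Vec n) {T : Ten n} (hT : TSymm T) (e a b : Fin n) :
    wd G β T e a b = wd G β T e b a := by
  simp only [wd, Matrix.of_apply]
  rw [dd1_symm G.h G.h1 (β a) (β b), hT.2 e a b]
  ring

/-- algebra of the second order coefficient -/
theorem fcoef2 (w : Vec n) {M1 : Mat n} (M2 M2' : Mat n) (hM1 : ∀ a b, M1 a b = M1 b a)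
    {U0 U1 : Fin n → Mat n} (U2 : Fin n → Mat n) {P X : Mat n} (h0 : ∀ a, (U0 a)ᵀ = U0 a)
    (hP : Pᵀ = P) (hX : Xᵀ = X) :
    (∑ a, ∑ b, ((Matrix.diagonal w : Mat n) a b * ((U0 a * P * U1 b * X).trace
          + (U0 a * X * U0 b * X).trace
          + (U1 a * P * U0 b * X).trace + (U0 a * P * U2 b * P).trace
          + (U0 a * X * U1 b * P).trace + (U1 a * P * U1 b * P).trace
          + (U1 a * X * U0 b * P).trace + (U2 a * P * U0 b * P).trace)
        + M1 a b * ((U0 a * P * U0 b * X).trace + (U0 a * P * U1 b * P).trace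
          + (U0 a * X * U0 b * P).trace + (U1 a * P * U0 b * P).trace)
        + (M2 a b + M2' a b) * (U0 a * P * U0 b * P).trace))
      = (∑ a, ∑ b, M2' a b * (U0 a * P * U0 b * P).trace
        + 2 * ∑ a, ∑ b, M1 a b * ((U1 a * P * U0 b * P).trace + (U0 a * X * U0 b * P).trace)
        + ∑ a, w a * ((U1 a * P * U1 a * P).trace + 2 * (U1 a * X * U0 a * P).trace
          + 2 * (U1 a * P * U0 a * X).trace + (U0 a * X * U0 a * X).trace))
        + (∑ a, ∑ b, M2 a b * (U0 a * P * U0 b * P).trace
          + 2 * ∑ a, w a * (U2 a * P * U0 a * P).trace) := by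
  simp only [Finset.sum_add_distrib, add_mul]
  rw [sum_diag2 w (fun a b => (U0 a * P * U1 b * X).trace
          + (U0 a * X * U0 b * X).trace
          + (U1 a * P * U0 b * X).trace + (U0 a * P * U2 b * P).trace
          + (U0 a * X * U1 b * P).trace + (U1 a * P * U1 b * P).trace
          + (U1 a * X * U0 b * P).trace + (U2 a * P * U0 b * P).trace)]
  have e1 : ∑ a, w a * ((U0 a * P * U1 a * X).trace
          + (U0 a * X * U0 a * X).trace
          + (U1 a * P * U0 a * X).trace + (U0 a * P * U2 a * P).trace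
          + (U0 a * X * U1 a * P).trace + (U1 a * P * U1 a * P).trace
          + (U1 a * X * U0 a * P).trace + (U2 a * P * U0 a * P).trace)
      = ∑ a, w a * ((U1 a * P * U1 a * P).trace + 2 * (U1 a * X * U0 a * P).trace
          + 2 * (U1 a * P * U0 a * X).trace + (U0 a * X * U0 a * X).trace)
        + 2 * ∑ a, w a * (U2 a * P * U0 a * P).trace := by
    rw [Finset.mul_sum, ← Finset.sum_add_distrib]
    refine Finset.sum_congr rfl fun a _ => ?_
    rw [cyc2 (U0 a) P (U1 a) X, cyc2 (U0 a) P (U2 a) P, cyc2 (U0 a) X (U1 a) P]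
    ring
  have e2 : ∑ a, ∑ b, M1 a b * ((U0 a * P * U0 b * X).trace + (U0 a * P * U1 b * P).trace
          + (U0 a * X * U0 b * P).trace + (U1 a * P * U0 b * P).trace)
      = 2 * ∑ a, ∑ b, M1 a b * ((U1 a * P * U0 b * P).trace + (U0 a * X * U0 b * P).trace) := by
    have e3 : ∑ a, ∑ b, M1 a b * (U0 a * P * U1 b * P).trace
        = ∑ a, ∑ b, M1 a b * (U1 a * P * U0 b * P).trace := by
      rw [Finset.sum_comm]
      refine Finset.sum_congr rfl fun a _ => Finset.sum_congr rfl fun b _ => ?_
      rw [hM1 b a, cyc2]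
    have e4 : ∀ a b, (U0 a * P * U0 b * X).trace = (U0 a * X * U0 b * P).trace := fun a b =>
      rev4 (h0 a) hP (h0 b) hX
    simp only [e4, mul_add, Finset.sum_add_distrib, e3]
    ring
  rw [e1, ← e2]
  simp only [mul_add, Finset.sum_add_distrib]
  ring

/-- algebra of the first order coefficient in `c` -/
theorem fcoef1 (w : Vec n) {M1 : Mat n}
    {U0 U1 : Fin n → Mat n} {P X : Mat n} (h0 : ∀ a, (U0 a)ᵀ = U0 a)
    (hP : Pᵀ = P) (hX : Xᵀ = X) :
    (∑ a, ∑ b, ((Matrix.diagonal w : Mat n) a b * ((U0 a * P * U0 b * X).trace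
          + (U0 a * P * U1 b * P).trace
          + (U0 a * X * U0 b * P).trace + (U1 a * P * U0 b * P).trace)
        + M1 a b * (U0 a * P * U0 b * P).trace))
      = (∑ a, ∑ b, M1 a b * (U0 a * P * U0 b * P).trace
        + 2 * ∑ a, w a * (U1 a * P * U0 a * P).trace)
        + 2 * ∑ a, w a * (U0 a * X * U0 a * P).trace := by
  simp only [Finset.sum_add_distrib]
  rw [sum_diag2 w (fun a b => (U0 a * P * U0 b * X).trace
          + (U0 a * P * U1 b * P).trace
          + (U0 a * X * U0 b * P).trace + (U1 a * P * U0 b * P).trace)]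
  have e1 : ∑ a, w a * ((U0 a * P * U0 a * X).trace
          + (U0 a * P * U1 a * P).trace
          + (U0 a * X * U0 a * P).trace + (U1 a * P * U0 a * P).trace)
      = 2 * ∑ a, w a * (U1 a * P * U0 a * P).trace
        + 2 * ∑ a, w a * (U0 a * X * U0 a * P).trace := by
    rw [Finset.mul_sum, Finset.mul_sum, ← Finset.sum_add_distrib]
    refine Finset.sum_congr rfl fun a _ => ?_
    rw [cyc2 (U0 a) P (U1 a) P, rev4 (h0 a) hP (h0 a) hX]
    ring
  rw [e1]
  ring

/-- algebra of the first order coefficient along the flow -/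
theorem fcoef1' (w : Vec n) (M1 : Mat n) (U0 U1 : Fin n → Mat n) (P : Mat n) :
    (∑ a, ∑ b, ((Matrix.diagonal w : Mat n) a b * ((U0 a * P * U1 b * P).trace
          + (U1 a * P * U0 b * P).trace)
        + M1 a b * (U0 a * P * U0 b * P).trace))
      = ∑ a, ∑ b, M1 a b * (U0 a * P * U0 b * P).trace
        + 2 * ∑ a, w a * (U1 a * P * U0 a * P).trace := by
  simp only [Finset.sum_add_distrib]
  rw [sum_diag2 w (fun a b => (U0 a * P * U1 b * P).trace + (U1 a * P * U0 b * P).trace)]
  have e1 : ∑ a, w a * ((U0 a * P * U1 a * P).trace + (U1 a * P * U0 a * P).trace)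
      = 2 * ∑ a, w a * (U1 a * P * U0 a * P).trace := by
    rw [Finset.mul_sum]
    refine Finset.sum_congr rfl fun a _ => ?_
    rw [cyc2 (U0 a) P (U1 a) P]
    ring
  rw [e1]
  ring

/-! ### the frame form -/

theorem wt_diag (G : Profile) (β : Vec n) :
    Matrix.diagonal β * sg0 G β * Matrix.diagonal β = Matrix.diagonal fun i => wt G (β i) := by
  unfold sg0
  rw [Matrix.diagonal_mul_diagonal, Matrix.diagonal_mul_diagonal]
  congr 1
  funext i
  unfold wt
  ring

theorem diag_conj (β : Vec n) (Z : Mat n) (a b : Fin n) :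
    (Matrix.diagonal β * Z * Matrix.diagonal β) a b = β a * β b * Z a b := by
  rw [Matrix.mul_diagonal, Matrix.diagonal_mul]
  ring

theorem fDD_jet2 (G : Profile) (hB : B.PosDef) (h : Fr (D.A B c) B L β)
    (hb : ∀ i, β i ∈ Ioo (0 : ℝ) 1) {P X : Mat n} (hP : Pᵀ = P) (hX : Xᵀ = X) (e : Fin n) :
    J2 (𝓝 0) (fun t : ℝ => fDD G D B (c + t • X452.dir L e) (Lᵀ * (P + t • X) * L))
      (ff G β (frT L (D.T B c)) P)
      (dff G β (frT L (D.T B c)) P (X452.fr4 L (D.K B c)) e
        + 2 * ∑ a, wt G (β a) *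
          (slc (frT L (D.T B c)) a * X * slc (frT L (D.T B c)) a * P).trace)
      (V2f G β (frT L (D.T B c)) P (X452.fr4 L (D.K B c)) e X + kf G D B c L β P e) := by
  have hTs := X452.frT_symm L (D.T_symm B c)
  have hS : MJ2 (𝓝 0) (fun t : ℝ => L * Sf G.p (D.A B (c + t • X452.dir L e)) B * Lᵀ)
      (sg0 G β) (sd G β (frT L (D.T B c)) e)
      ((1 / 2 : ℝ) • hKK G D B c L β e + sg G β (frT L (D.T B c)) e) :=
    fun i j => S_jet2 G hB h hb e i j
  have hM : MJ2 (𝓝 0) (fun t : ℝ => Matrix.diagonal β *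
        (L * Sf G.p (D.A B (c + t • X452.dir L e)) B * Lᵀ) * Matrix.diagonal β)
      (Matrix.diagonal fun i => wt G (β i)) (wd G β (frT L (D.T B c)) e)
      (Matrix.of fun a b => (1 / 2 * (β a * β b * hKK G D B c L β e a b))
        + wg G β (frT L (D.T B c)) e a b) := by
    intro i j
    refine ((hS i j).const_mul (β i * β j)).congr (Eventually.of_forall fun t => ?_) ?_ ?_ ?_
    · show _ = (Matrix.diagonal β *
        (L * Sf G.p (D.A B (c + t • X452.dir L e)) B * Lᵀ) * Matrix.diagonal β) i j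
      rw [diag_conj]
    · rw [← wt_diag, diag_conj]
    · simp only [sd, wd, Matrix.of_apply]
    · simp only [sg, wg, Matrix.of_apply, Matrix.add_apply, Matrix.smul_apply, smul_eq_mul]
      ring
  have hU : ∀ a, MJ2 (𝓝 0) (fun t : ℝ => slc (frT L (D.T B (c + t • X452.dir L e))) a)
      (slc (frT L (D.T B c)) a) (slc (X452.fr4 L (D.K B c) e) a)
      ((1 / 2 : ℝ) • slc (X452.fr5 L (D.R B c) e) a) := by
    intro a i j
    exact (X452.T_jet2 hB c L e a i j).congr_coef rfl rfl (by
      simp only [slc, Matrix.smul_apply, Matrix.of_apply, smul_eq_mul])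
  have h1 := fsum_jet2 le_rfl hM hU P X
  refine h1.congr (Eventually.of_forall fun t => ?_) ?_ ?_ ?_
  · show _ = fDD G D B (c + t • X452.dir L e) (Lᵀ * (P + t • X) * L)
    rw [fDD_frame G D (c + t • X452.dir L e) _ (P + t • X) (Fr.BSB h _)]
  · rw [sum_diag2 _ (fun a b =>
      (slc (frT L (D.T B c)) a * P * slc (frT L (D.T B c)) b * P).trace)]
    rfl
  · rw [fcoef1 _ (fun a => slc_symm hTs a) hP hX]
    rfl
  · have h2 := fcoef2 (fun i => wt G (β i)) (M1 := wd G β (frT L (D.T B c)) e)
      (Matrix.of fun a b => 1 / 2 * (β a * β b * hKK G D B c L β e a b))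
      (wg G β (frT L (D.T B c)) e) (fun a b => wd_symm G β hTs e a b)
      (U0 := fun a => slc (frT L (D.T B c)) a) (U1 := fun a => slc (X452.fr4 L (D.K B c) e) a)
      (fun a => (1 / 2 : ℝ) • slc (X452.fr5 L (D.R B c) e) a) (P := P) (X := X)
      (fun a => slc_symm hTs a) hP hX
    simp only [Matrix.of_apply] at h2 ⊢
    rw [h2]
    unfold V2f kf gm
    simp only [Matrix.smul_mul, Matrix.trace_smul, smul_eq_mul]
    have e1 : ∑ a, ∑ b, 1 / 2 * (β a * β b * hKK G D B c L β e a b) *
          (slc (frT L (D.T B c)) a * P * slc (frT L (D.T B c)) b * P).trace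
        = 1 / 2 * ∑ a, ∑ b, β a * β b * hKK G D B c L β e a b *
          (slc (frT L (D.T B c)) a * P * slc (frT L (D.T B c)) b * P).trace := by
      simp only [Finset.mul_sum]
      refine Finset.sum_congr rfl fun a _ => Finset.sum_congr rfl fun b _ => ?_
      ring
    have e2 : 2 * ∑ a, wt G (β a) * (1 / 2 *
          (slc (X452.fr5 L (D.R B c) e) a * P * slc (frT L (D.T B c)) a * P).trace)
        = ∑ a, wt G (β a) *
          (slc (X452.fr5 L (D.R B c) e) a * P * slc (frT L (D.T B c)) a * P).trace := by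
      rw [Finset.mul_sum]
      refine Finset.sum_congr rfl fun a _ => ?_
      ring
    rw [e1, e2]

/-- the `q`-part of the flow of the slices -/
theorem slc_flow (q : Vec n) (T : Ten n) (R : Fin n → Ten n) (a : Fin n) :
    slc (fun i j k => -(q i + q j + q k) * T i j k - 1 / 2 * ∑ e, q e * R e i j k) a
      = -(q a • slc T a + Matrix.diagonal q * slc T a + slc T a * Matrix.diagonal q)
        - (1 / 2 : ℝ) • ∑ e, q e • slc (R e) a := by
  ext i j
  simp only [slc, Matrix.of_apply, Matrix.sub_apply, Matrix.neg_apply, Matrix.add_apply,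
    Matrix.smul_apply, smul_eq_mul, Matrix.diagonal_mul, Matrix.mul_diagonal, Matrix.sum_apply]
  ring

theorem tr_flow {U P : Mat n} (hU : Uᵀ = U) (hP : Pᵀ = P) (q : Vec n) :
    (U * Matrix.diagonal q * P * U * P).trace = (Matrix.diagonal q * U * P * U * P).trace := by
  rw [← Matrix.trace_transpose (U * Matrix.diagonal q * P * U * P)]
  simp only [Matrix.transpose_mul, hU, hP, Matrix.diagonal_transpose]
  have e1 : P * (U * (P * (Matrix.diagonal q * U)))
      = (P * U * P) * (Matrix.diagonal q * U) := by simp only [Matrix.mul_assoc]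
  rw [e1, Matrix.trace_mul_comm]
  simp only [Matrix.mul_assoc]

theorem fDD_jet1 (G : Profile) (hB : B.PosDef) (h : Fr (D.A B c) B L β)
    (hb : ∀ i, β i ∈ Ioo (0 : ℝ) 1) {P : Mat n} (hP : Pᵀ = P) {q : Vec n}
    (hq : ∀ i, 0 ≤ q i) :
    J1 (𝓝[≥] 0) (fun t : ℝ => fDD G D (B + t • (Lᵀ * Matrix.diagonal q * L))
        (c + t • ((Lᵀ * Matrix.diagonal q * L) *ᵥ D.mu B c)) (Lᵀ * P * L))
      (ff G β (frT L (D.T B c)) P)
      (reactf G β (frT L (D.T B c)) P q - ∑ e, q e * kf G D B c L β P e) := by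
  have hl : 𝓝[≥] (0 : ℝ) ≤ 𝓝 0 := nhdsWithin_le_nhds
  have hTs := X452.frT_symm L (D.T_symm B c)
  have hS : MJ1 (𝓝[≥] 0) (fun t : ℝ => L * Sf G.p (D.A (B + t • (Lᵀ * Matrix.diagonal q * L))
        (c + t • ((Lᵀ * Matrix.diagonal q * L) *ᵥ D.mu B c)))
        (B + t • (Lᵀ * Matrix.diagonal q * L)) * Lᵀ) (sg0 G β)
      ((Matrix.diagonal fun i => q i * sfl G (β i))
        - (1 / 2 : ℝ) • ∑ e, q e • hKK G D B c L β e) :=
    fun i j => S_jet1 G hB h hb hq i j
  have hd : MJ1 (𝓝[≥] 0) (fun t : ℝ => Matrix.diagonal β + t • Matrix.diagonal q)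
      (Matrix.diagonal β) (Matrix.diagonal q) := MJ1.lin _ _
  have hM := (hd.mul hl hS).mul hl hd
  have hU : ∀ a, MJ1 (𝓝[≥] 0) (fun t : ℝ =>
        slc (frT L (D.T (B + t • (Lᵀ * Matrix.diagonal q * L))
        (c + t • ((Lᵀ * Matrix.diagonal q * L) *ᵥ D.mu B c)))) a)
      (slc (frT L (D.T B c)) a)
      (slc (fun i j k => -(q i + q j + q k) * frT L (D.T B c) i j k
        - 1 / 2 * ∑ e, q e * X452.fr5 L (D.R B c) e i j k) a) := by
    intro a i j
    exact T_jet1 hB h hq a i j
  have h1 := fsum_jet1 hl hM hU P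
  refine h1.congr (Eventually.of_forall fun t => ?_) ?_ ?_
  · show _ = fDD G D (B + t • (Lᵀ * Matrix.diagonal q * L))
        (c + t • ((Lᵀ * Matrix.diagonal q * L) *ᵥ D.mu B c)) (Lᵀ * P * L)
    refine (fDD_frame G D _ _ P ?_).symm
    have hB' : B + t • (Lᵀ * Matrix.diagonal q * L)
        = Lᵀ * (Matrix.diagonal β + t • Matrix.diagonal q) * L := by
      conv_lhs => rw [h.hB]
      rw [Matrix.mul_add, Matrix.add_mul, Matrix.mul_smul, Matrix.smul_mul]
    generalize Sf G.p (D.A (B + t • (Lᵀ * Matrix.diagonal q * L))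
        (c + t • ((Lᵀ * Matrix.diagonal q * L) *ᵥ D.mu B c)))
        (B + t • (Lᵀ * Matrix.diagonal q * L)) = S
    rw [hB']
    simp only [Matrix.mul_assoc]
  · rw [wt_diag, sum_diag2 _ (fun a b =>
      (slc (frT L (D.T B c)) a * P * slc (frT L (D.T B c)) b * P).trace)]
    rfl
  · rw [wt_diag, fcoef1']
    have e1 : ∀ a, (slc (fun i j k => -(q i + q j + q k) * frT L (D.T B c) i j k
          - 1 / 2 * ∑ e, q e * X452.fr5 L (D.R B c) e i j k) a * P
          * slc (frT L (D.T B c)) a * P).trace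
        = -(q a * gm (frT L (D.T B c)) P a a) - 2 *
          (Matrix.diagonal q * slc (frT L (D.T B c)) a * P * slc (frT L (D.T B c)) a * P).trace
          - 1 / 2 * ∑ e, q e * (slc (X452.fr5 L (D.R B c) e) a * P
            * slc (frT L (D.T B c)) a * P).trace := by
      intro a
      rw [slc_flow]
      simp only [Matrix.sub_mul, Matrix.neg_mul, Matrix.add_mul, Matrix.smul_mul,
        Matrix.sum_mul, Matrix.trace_sub, Matrix.trace_neg, Matrix.trace_add, Matrix.trace_smul,
        Matrix.trace_sum, smul_eq_mul]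
      rw [tr_flow (slc_symm hTs a) hP]
      unfold gm
      ring
    simp only [e1]
    have e2 : ∀ a b, (Matrix.diagonal β * sg0 G β * Matrix.diagonal q
          + (Matrix.diagonal β * ((Matrix.diagonal fun i => q i * sfl G (β i))
            - (1 / 2 : ℝ) • ∑ e, q e • hKK G D B c L β e) + Matrix.diagonal q * sg0 G β)
            * Matrix.diagonal β) a b
        = (Matrix.diagonal fun i => q i * wfl G (β i) : Mat n) a b
          - 1 / 2 * ∑ e, q e * (β a * β b * hKK G D B c L β e a b) := by
      intro a b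
      simp only [Matrix.add_mul, Matrix.add_apply, Matrix.mul_diagonal, Matrix.diagonal_mul,
        Matrix.sub_apply, Matrix.smul_apply, Matrix.sum_apply, smul_eq_mul]
      have e3 : ∑ e, q e * (β a * β b * hKK G D B c L β e a b)
          = β a * β b * ∑ e, q e * hKK G D B c L β e a b := by
        rw [Finset.mul_sum]
        exact Finset.sum_congr rfl fun e _ => by ring
      rw [e3]
      rcases eq_or_ne a b with hab | hab
      · subst hab
        simp only [sg0, Matrix.diagonal_apply_eq, wfl, sfl]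
        ring
      · simp only [sg0, Matrix.diagonal_apply_ne _ hab]
        ring
    simp only [e2, sub_mul, Finset.sum_sub_distrib]
    rw [sum_diag2 _ (fun a b =>
      (slc (frT L (D.T B c)) a * P * slc (frT L (D.T B c)) b * P).trace)]
    unfold reactf kf
    have e4 : ∑ x, ∑ y, (1 / 2 * ∑ e, q e * (β x * β y * hKK G D B c L β e x y)) *
          (slc (frT L (D.T B c)) x * P * slc (frT L (D.T B c)) y * P).trace
        = ∑ e, q e * (1 / 2 * ∑ x, ∑ y, β x * β y * hKK G D B c L β e x y *
          gm (frT L (D.T B c)) P x y) := by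
      simp only [Finset.mul_sum, Finset.sum_mul]
      calc ∑ x, ∑ y, ∑ e, 1 / 2 * (q e * (β x * β y * hKK G D B c L β e x y)) *
            (slc (frT L (D.T B c)) x * P * slc (frT L (D.T B c)) y * P).trace
          = ∑ x, ∑ e, ∑ y, 1 / 2 * (q e * (β x * β y * hKK G D B c L β e x y)) *
            (slc (frT L (D.T B c)) x * P * slc (frT L (D.T B c)) y * P).trace :=
            Finset.sum_congr rfl fun x _ => Finset.sum_comm
        _ = ∑ e, ∑ x, ∑ y, 1 / 2 * (q e * (β x * β y * hKK G D B c L β e x y)) *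
            (slc (frT L (D.T B c)) x * P * slc (frT L (D.T B c)) y * P).trace :=
            Finset.sum_comm
        _ = _ := by
            refine Finset.sum_congr rfl fun e _ => Finset.sum_congr rfl fun x _ =>
              Finset.sum_congr rfl fun y _ => ?_
            unfold gm
            ring
    have e5 : ∑ x, wt G (β x) *
            (-(q x * gm (frT L (D.T B c)) P x x) -
                2 * (Matrix.diagonal q * slc (frT L (D.T B c)) x * P
                  * slc (frT L (D.T B c)) x * P).trace -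
              1 / 2 * ∑ e, q e * (slc (X452.fr5 L (D.R B c) e) x * P
                * slc (frT L (D.T B c)) x * P).trace)
        = -(∑ x, q x * wt G (β x) * gm (frT L (D.T B c)) P x x)
          - 2 * ∑ x, wt G (β x) * (Matrix.diagonal q * slc (frT L (D.T B c)) x * P
                  * slc (frT L (D.T B c)) x * P).trace
          - 1 / 2 * ∑ e, q e * ∑ x, wt G (β x) * (slc (X452.fr5 L (D.R B c) e) x * P
                * slc (frT L (D.T B c)) x * P).trace := by
      have e6 : ∑ e, q e * ∑ x, wt G (β x) * (slc (X452.fr5 L (D.R B c) e) x * P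
                * slc (frT L (D.T B c)) x * P).trace
          = ∑ x, wt G (β x) * ∑ e, q e * (slc (X452.fr5 L (D.R B c) e) x * P
                * slc (frT L (D.T B c)) x * P).trace := by
        simp only [Finset.mul_sum]
        rw [Finset.sum_comm]
        refine Finset.sum_congr rfl fun x _ => Finset.sum_congr rfl fun e _ => ?_
        ring
      rw [e6, Finset.mul_sum, Finset.mul_sum, ← Finset.sum_neg_distrib, ← Finset.sum_sub_distrib,
        ← Finset.sum_sub_distrib]
      refine Finset.sum_congr rfl fun x _ => ?_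
      ring
    rw [e4, e5]
    have e7 : ∑ a, q a * (wfl G (β a) - 2 * wt G (β a)) * gm (frT L (D.T B c)) P a a
        = ∑ a, q a * wfl G (β a) * (slc (frT L (D.T B c)) a * P * slc (frT L (D.T B c)) a
            * P).trace
          - 2 * ∑ x, q x * wt G (β x) * gm (frT L (D.T B c)) P x x := by
      rw [Finset.mul_sum, ← Finset.sum_sub_distrib]
      refine Finset.sum_congr rfl fun x _ => ?_
      unfold gm
      ring
    rw [e7]
    simp only [mul_add, Finset.sum_add_distrib]
    ring

end Vale.Agent.P254.DD
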