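import Vale.Agent.P254.DD.Jet

/-!
P254, the (DD) chain: matrix jets and the jets of `gDD` (helper624).
-/

set_option autoImplicit false

noncomputable section

namespace Vale.Agent.P254.DD

open Matrix Polynomial Set Filter Topology Asymptotics
open Vale.Agent.P254.L Vale.Agent.P254.S526 Vale.Agent.P254.Z546
open scoped BigOperators

variable {n : ℕ} {l : Filter ℝ}

/-! ### matrix jets -/

/-- second order jet of a matrix -/
def MJ2 (l : Filter ℝ) (M : ℝ → Mat n) (M0 M1 M2 : Mat n) : Prop :=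
  ∀ i j, J2 l (fun t => M t i j) (M0 i j) (M1 i j) (M2 i j)

/-- first order jet of a matrix -/
def MJ1 (l : Filter ℝ) (M : ℝ → Mat n) (M0 M1 : Mat n) : Prop :=
  ∀ i j, J1 l (fun t => M t i j) (M0 i j) (M1 i j)

theorem MJ2.mul (hl : l ≤ 𝓝 0) {M N : ℝ → Mat n} {M0 M1 M2 N0 N1 N2 : Mat n}
    (hM : MJ2 l M M0 M1 M2) (hN : MJ2 l N N0 N1 N2) :
    MJ2 l (fun t => M t * N t) (M0 * N0) (M0 * N1 + M1 * N0) (M0 * N2 + M1 * N1 + M2 * N0) := by
  intro i j
  refine (J2.sum Finset.univ (fun k _ => (hM i k).mul hl (hN k j))).congr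
    (Eventually.of_forall fun t => ?_) ?_ ?_ ?_
  · simp only [Matrix.mul_apply]
  · simp only [Matrix.mul_apply]
  · simp only [Matrix.mul_apply, Matrix.add_apply, Finset.sum_add_distrib]
  · simp only [Matrix.mul_apply, Matrix.add_apply, Finset.sum_add_distrib]

theorem MJ1.mul (hl : l ≤ 𝓝 0) {M N : ℝ → Mat n} {M0 M1 N0 N1 : Mat n}
    (hM : MJ1 l M M0 M1) (hN : MJ1 l N N0 N1) :
    MJ1 l (fun t => M t * N t) (M0 * N0) (M0 * N1 + M1 * N0) := by
  intro i j
  refine (J1.sum Finset.univ (fun k _ => (hM i k).mul hl (hN k j))).congr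
    (Eventually.of_forall fun t => ?_) ?_ ?_
  · simp only [Matrix.mul_apply]
  · simp only [Matrix.mul_apply]
  · simp only [Matrix.mul_apply, Matrix.add_apply, Finset.sum_add_distrib]

theorem MJ2.trace {M : ℝ → Mat n} {M0 M1 M2 : Mat n} (hM : MJ2 l M M0 M1 M2) :
    J2 l (fun t => (M t).trace) M0.trace M1.trace M2.trace :=
  J2.sum Finset.univ (fun k _ => hM k k)

theorem MJ1.trace {M : ℝ → Mat n} {M0 M1 : Mat n} (hM : MJ1 l M M0 M1) :
    J1 l (fun t => (M t).trace) M0.trace M1.trace :=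
  J1.sum Finset.univ (fun k _ => hM k k)

theorem MJ2.lin (P X : Mat n) : MJ2 l (fun t => P + t • X) P X 0 := by
  intro i j
  refine ((J2.const (P i j)).add (J2.id.mul_const (X i j))).congr
    (Eventually.of_forall fun t => ?_) ?_ ?_ ?_
  · rfl
  · ring
  · ring
  · simp

theorem MJ1.const (P : Mat n) : MJ1 l (fun _ => P) P 0 := fun i j => J1.const (P i j)

theorem MJ1.lin (P X : Mat n) : MJ1 l (fun t => P + t • X) P X := by
  intro i j
  refine ((J1.const (P i j)).add (J1.id.mul_const (X i j))).congr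
    (Eventually.of_forall fun t => ?_) ?_ ?_
  · rfl
  · ring
  · ring

/-! ### traces of four matrices -/

theorem cyc2 (a b c d : Mat n) : (a * b * c * d).trace = (c * d * a * b).trace := by
  have e1 : a * b * c * d = (a * b) * (c * d) := by simp only [Matrix.mul_assoc]
  have e2 : c * d * a * b = (c * d) * (a * b) := by simp only [Matrix.mul_assoc]
  rw [e1, e2, Matrix.trace_mul_comm]

theorem rev4 {a b c d : Mat n} (ha : aᵀ = a) (hb : bᵀ = b) (hc : cᵀ = c) (hd : dᵀ = d) :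
    (a * b * c * d).trace = (a * d * c * b).trace := by
  rw [← Matrix.trace_transpose (a * b * c * d)]
  simp only [Matrix.transpose_mul, ha, hb, hc, hd]
  have e1 : d * (c * (b * a)) = (d * c * b) * a := by simp only [Matrix.mul_assoc]
  rw [e1, Matrix.trace_mul_comm]
  simp only [Matrix.mul_assoc]

theorem dd1_symm (f f1 : ℝ → ℝ) (x y : ℝ) : dd1 f f1 x y = dd1 f f1 y x := by
  unfold dd1
  rcases eq_or_ne x y with h | h
  · subst h; rfl
  · rw [if_neg h, if_neg h.symm, ← neg_div_neg_eq]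
    ring

theorem sg0_symm (F : Profile) (β : Vec n) : (sg0 F β)ᵀ = sg0 F β := Matrix.diagonal_transpose _

theorem sd_symm (F : Profile) (β : Vec n) {T : Ten n} (hT : TSymm T) (e : Fin n) :
    (sd F β T e)ᵀ = sd F β T e := by
  ext i j
  simp only [sd, Matrix.transpose_apply, Matrix.of_apply]
  rw [dd1_symm, hT.2 e j i]

theorem gcoef1 (S0 S1 P X : Mat n) :
    (S0 * P * S0 * X + (S0 * P * S1 + (S0 * X + S1 * P) * S0) * P).trace
      = 2 * (S1 * P * S0 * P).trace + 2 * (S0 * X * S0 * P).trace := by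
  simp only [Matrix.add_mul, Matrix.trace_add]
  rw [cyc2 S0 P S0 X, cyc2 S0 P S1 P]
  ring

theorem gcoef2 {S0 S1 P X : Mat n} (S2 : Mat n) (h0 : S0ᵀ = S0) (h1 : S1ᵀ = S1) (hP : Pᵀ = P)
    (hX : Xᵀ = X) :
    (S0 * P * S0 * 0 + (S0 * P * S1 + (S0 * X + S1 * P) * S0) * X
        + (S0 * P * S2 + (S0 * X + S1 * P) * S1 + (S0 * 0 + S1 * X + S2 * P) * S0) * P).trace
      = 2 * (S2 * P * S0 * P).trace + (S1 * P * S1 * P).trace + 4 * (S1 * P * S0 * X).trace
        + (S0 * X * S0 * X).trace := by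
  simp only [Matrix.add_mul, Matrix.trace_add, Matrix.mul_zero, zero_add]
  rw [cyc2 S0 P S1 X, cyc2 S0 P S2 P, cyc2 S0 X S1 P, rev4 h1 hX h0 hP]
  ring

/-! ### jets of `gDD` -/

variable {D : TiltData n} {B : Mat n} {c : Vec n} {L : Mat n} {β : Vec n}

/-- the part of the second order jet of `gDD` which cancels with the flow -/
def kg (F : Profile) (D : TiltData n) (B : Mat n) (c : Vec n) (L : Mat n) (β : Vec n)
    (P : Mat n) (e : Fin n) : ℝ := (hKK F D B c L β e * P * sg0 F β * P).trace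

theorem gDD_jet2 (F : Profile) (hB : B.PosDef) (h : Fr (D.A B c) B L β)
    (hb : ∀ i, β i ∈ Ioo (0 : ℝ) 1) {P X : Mat n} (hP : Pᵀ = P) (hX : Xᵀ = X) (e : Fin n) :
    J2 (𝓝 0) (fun t : ℝ => gDD F D B (c + t • X452.dir L e) (Lᵀ * (P + t • X) * L))
      (gg F β P)
      (dgg F β (frT L (D.T B c)) P e + 2 * (sg0 F β * X * sg0 F β * P).trace)
      (V2g F β (frT L (D.T B c)) P e X + kg F D B c L β P e) := by
  have hS : MJ2 (𝓝 0) (fun t : ℝ => L * Sf F.p (D.A B (c + t • X452.dir L e)) B * Lᵀ)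
      (sg0 F β) (sd F β (frT L (D.T B c)) e)
      ((1 / 2 : ℝ) • hKK F D B c L β e + sg F β (frT L (D.T B c)) e) :=
    fun i j => S_jet2 F hB h hb e i j
  have hL := MJ2.lin (l := 𝓝 0) P X
  have h1 := (((hS.mul le_rfl hL).mul le_rfl hS).mul le_rfl hL).trace
  have hsd := sd_symm F β (X452.frT_symm L (D.T_symm B c)) e
  have hs0 := sg0_symm F β
  refine h1.congr (Eventually.of_forall fun t => ?_) rfl ?_ ?_
  · show _ = gDD F D B (c + t • X452.dir L e) (Lᵀ * (P + t • X) * L)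
    rw [gDD_frame]
  · exact gcoef1 _ _ _ _
  · rw [gcoef2 _ hs0 hsd hP hX]
    unfold V2g kg
    simp only [Matrix.add_mul, Matrix.smul_mul, Matrix.trace_add, Matrix.trace_smul, smul_eq_mul]
    ring

theorem gDD_jet1 (F : Profile) (hB : B.PosDef) (h : Fr (D.A B c) B L β)
    (hb : ∀ i, β i ∈ Ioo (0 : ℝ) 1) {P : Mat n} {q : Vec n} (hq : ∀ i, 0 ≤ q i) :
    J1 (𝓝[≥] 0) (fun t : ℝ => gDD F D (B + t • (Lᵀ * Matrix.diagonal q * L))
        (c + t • ((Lᵀ * Matrix.diagonal q * L) *ᵥ D.mu B c)) (Lᵀ * P * L))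
      (gg F β P) (reactg F β P q - ∑ e, q e * kg F D B c L β P e) := by
  have hl : 𝓝[≥] (0 : ℝ) ≤ 𝓝 0 := nhdsWithin_le_nhds
  have hS : MJ1 (𝓝[≥] 0) (fun t : ℝ => L * Sf F.p (D.A (B + t • (Lᵀ * Matrix.diagonal q * L))
        (c + t • ((Lᵀ * Matrix.diagonal q * L) *ᵥ D.mu B c)))
        (B + t • (Lᵀ * Matrix.diagonal q * L)) * Lᵀ) (sg0 F β)
      ((Matrix.diagonal fun i => q i * sfl F (β i))
        - (1 / 2 : ℝ) • ∑ e, q e • hKK F D B c L β e) :=
    fun i j => S_jet1 F hB h hb hq i j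
  have hL := MJ1.const (l := 𝓝[≥] (0 : ℝ)) P
  have h1 := (((hS.mul hl hL).mul hl hS).mul hl hL).trace
  refine h1.congr (Eventually.of_forall fun t => ?_) rfl ?_
  · show _ = gDD F D (B + t • (Lᵀ * Matrix.diagonal q * L))
        (c + t • ((Lᵀ * Matrix.diagonal q * L) *ᵥ D.mu B c)) (Lᵀ * P * L)
    rw [gDD_frame]
  · rw [gcoef1]
    unfold reactg kg
    simp only [Matrix.zero_mul, Matrix.trace_zero, mul_zero, add_zero,
      Matrix.sub_mul, Matrix.trace_sub, Matrix.smul_mul, Matrix.sum_mul, Matrix.trace_smul,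
      Matrix.trace_sum, smul_eq_mul]
    ring

end Vale.Agent.P254.DD
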