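import Vale.Agent.P254.H452.XExist
import Vale.Agent.P254.DD.Iface

/-!
P254, maximum principle for (DD): corridors of pairs `(τ, B)` with admissible controls, existence
of the last contact for abstract functionals `f`, `g` of `(B, c, P)`, EVERY admissible control
(helper640).

* `Cor K Adm`, `Dom K S ρ`, `Dom_compact`, `Dom_step`, `exists_contact` : general corridors
* `KX D Cc B0`, `AdmX D Cc`, `DXq D Cc B0 S ρ` : the corridor of (DD); `cor_KX`
* `maxPrinciple` : the complete abstract maximum principle, clocks `Q = Lᵀ diag q L`, `1 ≤ q i`,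
  `q i ≤ rho x` for `x ≤ β k`, `RhoOK rho`.
-/

set_option autoImplicit false

namespace Vale.Agent.P254.DDom

open Matrix Polynomial Filter Topology Asymptotics Set
open Vale.Agent.P254.L Vale.Agent.P254.S526 Vale.Agent.P254.Z546 Vale.Agent.P254.X452

variable {n : ℕ}

/-! ### corridors -/

/-- a corridor `K` of pairs `(τ, B)` with admissible controls -/
structure Cor (K : Set (ℝ × Mat n)) (Adm : ℝ → Mat n → Mat n → Prop) : Prop where
  closed : IsClosed K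
  pd : ∀ τ B, 1 ≤ τ → (τ, B) ∈ K → B.PosDef
  bdd : ∀ S : ℝ, ∃ R : ℝ, ∀ τ B, 1 ≤ τ → τ ≤ S → (τ, B) ∈ K → (R • (1 : Mat n) - B).PosSemidef
  ne : ∀ τ B, 1 ≤ τ → (τ, B) ∈ K → ∃ Q, Adm τ B Q
  step : ∀ (τ : ℝ) (B Q : Mat n) (t : ℝ), 1 ≤ τ → (τ, B) ∈ K → Adm τ B Q → 0 ≤ t →
    (τ * (1 + t), B + t • Q) ∈ K

/-- `1 ≤ τ ≤ S`, `(τ, B) ∈ K`, `|c| ≤ ρ`, `P ≥ 0`, `tr P = 1` -/
def Dom (K : Set (ℝ × Mat n)) (S ρ : ℝ) : Set (ℝ × Mat n × Vec n × Mat n) :=
  {p | p.1 ∈ Icc 1 S ∧ (p.1, p.2.1) ∈ K ∧ ‖p.2.2.1‖ ≤ ρ ∧ p.2.2.2.PosSemidef ∧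
    p.2.2.2.trace = 1}

variable {K : Set (ℝ × Mat n)} {Adm : ℝ → Mat n → Mat n → Prop} {S ρ : ℝ}

theorem posDef_of_ge {B : Mat n} {l : ℝ} (hl : 0 < l) (h : (B - l • (1 : Mat n)).PosSemidef) :
    B.PosDef := by
  have h1 := (Matrix.PosDef.one (n := Fin n) (R := ℝ)).smul hl
  have h3 := h1.add_posSemidef h
  refine cast (congrArg Matrix.PosDef ?_) h3
  abel

theorem Dom_posDef (hK : Cor K Adm) {p : ℝ × Mat n × Vec n × Mat n}
    (hp : p ∈ Dom K S ρ) : p.2.1.PosDef :=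
  hK.pd _ _ hp.1.1 hp.2.1

theorem Dom_compact (hK : Cor K Adm) : IsCompact (Dom K S ρ) := by
  obtain ⟨R, hR⟩ := hK.bdd S
  have hC : IsCompact (Icc (1 : ℝ) S ×ˢ ({M : Mat n | ∀ i j, M i j ∈ Icc (-R) R} ×ˢ
      (Metric.closedBall (0 : Vec n) ρ ×ˢ {M : Mat n | ∀ i j, M i j ∈ Icc (-(1 : ℝ)) 1}))) :=
    isCompact_Icc.prod ((isCompact_box _).prod ((isCompact_closedBall _ _).prod (isCompact_box _)))
  refine hC.of_isClosed_subset ?_ ?_
  · have c1 : Continuous fun p : ℝ × Mat n × Vec n × Mat n => (p.1, p.2.1) := by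
      fun_prop
    have c3 : Continuous fun p : ℝ × Mat n × Vec n × Mat n => p.2.2.2 := by fun_prop
    have i1 : IsClosed {p : ℝ × Mat n × Vec n × Mat n | p.1 ∈ Icc 1 S} :=
      isClosed_Icc.preimage continuous_fst
    have i2 := hK.closed.preimage c1
    have i4 : IsClosed {p : ℝ × Mat n × Vec n × Mat n | ‖p.2.2.1‖ ≤ ρ} :=
      isClosed_le (by fun_prop) continuous_const
    have i5 := isClosed_psd.preimage c3
    have i6 : IsClosed {p : ℝ × Mat n × Vec n × Mat n | p.2.2.2.trace = 1} :=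
      isClosed_eq (c3.matrix_trace) continuous_const
    have e : Dom K S ρ = {p : ℝ × Mat n × Vec n × Mat n | p.1 ∈ Icc 1 S} ∩
        (((fun p : ℝ × Mat n × Vec n × Mat n => (p.1, p.2.1)) ⁻¹' K) ∩
        ({p : ℝ × Mat n × Vec n × Mat n | ‖p.2.2.1‖ ≤ ρ} ∩
          (((fun p : ℝ × Mat n × Vec n × Mat n => p.2.2.2) ⁻¹' {M : Mat n | M.PosSemidef}) ∩
          {p : ℝ × Mat n × Vec n × Mat n | p.2.2.2.trace = 1}))) := rfl
    rw [e]
    exact i1.inter (i2.inter (i4.inter (i5.inter i6)))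
  · rintro p hp
    have h2 := Dom_posDef hK hp
    obtain ⟨h3, h1, h4, h5, h6⟩ := hp
    have h7 : (R • (1 : Mat n) - p.2.1).PosSemidef := hR _ _ h3.1 h3.2 h1
    refine ⟨h3, ?_, ?_, ?_⟩
    · intro i j
      have h5 := psd_entry h2.posSemidef i j
      have h6 := psd_diag_le h7 i
      have h7 := psd_diag_le h7 j
      exact abs_le.1 (h5.trans (by linarith))
    · simpa using h4
    · intro i j
      have h8 := Fr.abs_le_trace h5 i j
      rw [h6] at h8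
      exact abs_le.1 h8

theorem Dom_step (hK : Cor K Adm) {τ : ℝ} {B Q : Mat n} {c₀ c' : Vec n}
    {P P' : Mat n} (hp : (τ, B, c₀, P) ∈ Dom K S ρ) (hQ : Adm τ B Q) {t : ℝ} (ht : 0 ≤ t)
    (hs : τ * (1 + t) ≤ S) (hc' : ‖c'‖ ≤ ρ) (hP' : P'.PosSemidef) (hP1 : P'.trace = 1) :
    (τ * (1 + t), B + t • Q, c', P') ∈ Dom K S ρ := by
  obtain ⟨k1, k2, -, -, -⟩ := hp
  simp only at k1 k2
  refine ⟨⟨?_, hs⟩, hK.step τ B Q t k1.1 k2 hQ ht, hc', hP', hP1⟩
  show 1 ≤ τ * (1 + t)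
  nlinarith [k1.1]

/-! ### existence of the last contact -/

theorem phi_cont {f g : Mat n → Vec n → Mat n → ℝ}
    (hfc : ContinuousOn (fun p : ℝ × Mat n × Vec n × Mat n => f p.2.1 p.2.2.1 p.2.2.2)
      (Dom K S ρ))
    (hgc : ContinuousOn (fun p : ℝ × Mat n × Vec n × Mat n => g p.2.1 p.2.2.1 p.2.2.2)
      (Dom K S ρ)) (ε : ℝ) (N : ℕ) : ContinuousOn (phiF f g ε N) (Dom K S ρ) := by
  refine hfc.sub (ContinuousOn.mul ?_ hgc)
  refine continuousOn_const.add (continuousOn_const.mul ?_)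
  refine ContinuousOn.inv₀ ?_ ?_
  · have : Continuous fun p : ℝ × Mat n × Vec n × Mat n => p.1 ^ N := by fun_prop
    exact this.continuousOn
  · intro p hp
    have : 0 < p.1 := by linarith [hp.1.1]
    positivity

/-- **Existence of the last bad point.** -/
theorem exists_last (hK : Cor K Adm) {f g : Mat n → Vec n → Mat n → ℝ}
    (hfc : ContinuousOn (fun p : ℝ × Mat n × Vec n × Mat n => f p.2.1 p.2.2.1 p.2.2.2)
      (Dom K S ρ))
    (hgc : ContinuousOn (fun p : ℝ × Mat n × Vec n × Mat n => g p.2.1 p.2.2.1 p.2.2.2)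
      (Dom K S ρ))
    {ε : ℝ} (N : ℕ) {B0 : Mat n} {c0 : Vec n} {P0 : Mat n}
    (h0 : ((1 : ℝ), B0, c0, P0) ∈ Dom K S ρ) (hε : (1 + ε) * g B0 c0 P0 ≤ f B0 c0 P0) :
    ∃ x ∈ Dom K S ρ, 0 ≤ phiF f g ε N x ∧
      ∀ y ∈ Dom K S ρ, x.1 < y.1 → phiF f g ε N y < 0 := by
  have hφc := phi_cont hfc hgc ε N
  have hKc : IsCompact (Dom K S ρ) := Dom_compact hK
  have hBc : IsCompact (Dom K S ρ ∩ phiF f g ε N ⁻¹' Ici 0) := hKc.of_isClosed_subset
    (hφc.preimage_isClosed_of_isClosed hKc.isClosed isClosed_Ici) inter_subset_left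
  have hne : ((1 : ℝ), B0, c0, P0) ∈ Dom K S ρ ∩ phiF f g ε N ⁻¹' Ici 0 := by
    refine ⟨h0, ?_⟩
    show 0 ≤ phiF f g ε N ((1 : ℝ), B0, c0, P0)
    unfold phiF
    simp only [one_pow, inv_one, mul_one]
    linarith
  obtain ⟨x, hmem, hmax⟩ := hBc.exists_isMaxOn ⟨_, hne⟩ continuous_fst.continuousOn
  refine ⟨x, hmem.1, hmem.2, fun y hy hlt => ?_⟩
  by_contra h
  push Not at h
  have : y.1 ≤ x.1 := hmax (show y ∈ Dom K S ρ ∩ phiF f g ε N ⁻¹' Ici 0 from ⟨hy, h⟩)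
  linarith

/-- the limit argument -/
theorem lim_le (hK : Cor K Adm) {f g : Mat n → Vec n → Mat n → ℝ}
    (hfc : ContinuousOn (fun p : ℝ × Mat n × Vec n × Mat n => f p.2.1 p.2.2.1 p.2.2.2)
      (Dom K S ρ))
    (hgc : ContinuousOn (fun p : ℝ × Mat n × Vec n × Mat n => g p.2.1 p.2.2.1 p.2.2.2)
      (Dom K S ρ))
    {ε : ℝ} {N : ℕ} {τ : ℝ} {B : Mat n} {c : Vec n} {P : Mat n}
    (hD : (τ, B, c, P) ∈ Dom K S ρ) (hτS : τ < S)
    (hnot : ∀ y ∈ Dom K S ρ, τ < y.1 → phiF f g ε N y < 0) :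
    ∀ c' : Vec n, ‖c'‖ ≤ ρ → ∀ P' : Mat n, P'.PosSemidef → P'.trace = 1 →
      f B c' P' ≤ (1 + ε * (τ ^ N)⁻¹) * g B c' P' := by
  intro c' hc' P' hP' hP1'
  have hφc := phi_cont hfc hgc ε N
  have hmem' : (τ, B, c', P') ∈ Dom K S ρ := ⟨hD.1, hD.2.1, hc', hP', hP1'⟩
  have hτ1 : 1 ≤ τ := hD.1.1
  obtain ⟨Q, hQ⟩ := hK.ne τ B hτ1 hD.2.1
  have hev : ∀ᶠ t in 𝓝[>] (0 : ℝ), τ * (1 + t) < S := by
    have h1 : Tendsto (fun t : ℝ => τ * (1 + t)) (𝓝[>] 0) (𝓝 (τ * (1 + 0))) := by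
      refine Tendsto.mono_left ?_ nhdsWithin_le_nhds
      apply Continuous.tendsto
      fun_prop
    rw [add_zero, mul_one] at h1
    exact h1.eventually (gt_mem_nhds hτS)
  have hin : ∀ᶠ t in 𝓝[>] (0 : ℝ), (τ * (1 + t), B + t • Q, c', P') ∈ Dom K S ρ := by
    filter_upwards [hev, self_mem_nhdsWithin] with t ht1 ht2
    exact Dom_step hK hD hQ (le_of_lt ht2) ht1.le hc' hP' hP1'
  have ht : Tendsto (fun t : ℝ => (τ * (1 + t), B + t • Q, c', P'))
      (𝓝[>] 0) (𝓝[Dom K S ρ] (τ, B, c', P')) := by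
    refine tendsto_nhdsWithin_iff.2 ⟨?_, hin⟩
    have h1 : Continuous fun t : ℝ => (τ * (1 + t), B + t • Q, c', P') := by
      fun_prop
    have h2 := (h1.tendsto 0).mono_left (nhdsWithin_le_nhds (s := Ioi (0 : ℝ)))
    simpa using h2
  have h3 := (hφc _ hmem').tendsto.comp ht
  have h4 : phiF f g ε N (τ, B, c', P') ≤ 0 := by
    refine le_of_tendsto h3 ?_
    filter_upwards [hin, self_mem_nhdsWithin] with t ht1 ht2
    refine (hnot _ ht1 ?_).le
    have : (0 : ℝ) < t := ht2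
    show τ < τ * (1 + t)
    nlinarith
  have h5 : f B c' P' - (1 + ε * (τ ^ N)⁻¹) * g B c' P' ≤ 0 := h4
  linarith

/-- **Existence of the last contact**, abstract functionals, general corridor; velocity of `c`
equal to `Q *ᵥ v B c` (take `v = D.mu`). -/
theorem exists_contact (hK : Cor K Adm) (v : Mat n → Vec n → Vec n)
    {f g : Mat n → Vec n → Mat n → ℝ}
    (hfc : ContinuousOn (fun p : ℝ × Mat n × Vec n × Mat n => f p.2.1 p.2.2.1 p.2.2.2)
      (Dom K S ρ))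
    (hgc : ContinuousOn (fun p : ℝ × Mat n × Vec n × Mat n => g p.2.1 p.2.2.1 p.2.2.2)
      (Dom K S ρ))
    (hg0 : ∀ p ∈ Dom K S ρ, 0 ≤ g p.2.1 p.2.2.1 p.2.2.2)
    (htop : ∀ p ∈ Dom K S ρ, p.1 = S →
      f p.2.1 p.2.2.1 p.2.2.2 < g p.2.1 p.2.2.1 p.2.2.2)
    (hside : ∀ p ∈ Dom K S ρ, ‖p.2.2.1‖ = ρ →
      f p.2.1 p.2.2.1 p.2.2.2 < g p.2.1 p.2.2.1 p.2.2.2)
    {B0 : Mat n} {c0 : Vec n} {P0 : Mat n} (h0 : ((1 : ℝ), B0, c0, P0) ∈ Dom K S ρ)
    (hlt : g B0 c0 P0 < f B0 c0 P0) (N : ℕ) :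
    ∃ (e τ : ℝ) (B : Mat n) (c : Vec n) (P : Mat n), 0 < e ∧ e ≤ 1 ∧
      (τ, B, c, P) ∈ Dom K S ρ ∧
      (∀ᶠ c' in 𝓝 c, ∀ P' : Mat n, P'.PosSemidef → P'.trace = 1 →
        f B c' P' ≤ (1 + e) * g B c' P') ∧
      f B c P = (1 + e) * g B c P ∧
      ∃ ϑ : ℝ → ℝ, J1 (𝓝[≥] 0) ϑ (1 + e) (-(N * e)) ∧
        ∀ Q : Mat n, Adm τ B Q → ∀ᶠ t in 𝓝[≥] (0 : ℝ),
          f (B + t • Q) (c + t • (Q *ᵥ v B c)) P
            ≤ ϑ t * g (B + t • Q) (c + t • (Q *ᵥ v B c)) P := by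
  obtain ⟨ε, hε0, hε1, hε⟩ := exists_eps hlt
  obtain ⟨⟨τ, B, c, P⟩, hD, hφ0, hnot⟩ := exists_last hK hfc hgc N h0 hε
  have hτ1 : 1 ≤ τ := hD.1.1
  have hτ0 : 0 < τ := by linarith
  have hPp : P.PosSemidef := hD.2.2.2.1
  have hPt : P.trace = 1 := hD.2.2.2.2
  have hstrict : ∀ x ∈ Dom K S ρ,
      f x.2.1 x.2.2.1 x.2.2.2 < g x.2.1 x.2.2.1 x.2.2.2 → phiF f g ε N x < 0 := by
    intro x hx hlt
    have h1 := (theta_bd hε0 hε1 N hx.1.1).1
    have h2 := hg0 x hx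
    unfold phiF
    nlinarith [mul_nonneg h1.le h2]
  have hτS : τ < S := by
    rcases hD.1.2.lt_or_eq with h | h
    · exact h
    · exact absurd hφ0 (not_le.2 (hstrict _ hD (htop _ hD h)))
  have hcρ : ‖c‖ < ρ := by
    rcases hD.2.2.1.lt_or_eq with h | h
    · exact h
    · exact absurd hφ0 (not_le.2 (hstrict _ hD (hside _ hD h)))
  have hle := lim_le hK hfc hgc hD hτS hnot
  have hθ := theta_bd hε0 hε1 N hτ1
  have heq : f B c P = (1 + ε * (τ ^ N)⁻¹) * g B c P := by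
    have h1 := hle c hcρ.le P hPp hPt
    have h2 : 0 ≤ f B c P - (1 + ε * (τ ^ N)⁻¹) * g B c P := hφ0
    linarith
  refine ⟨ε * (τ ^ N)⁻¹, τ, B, c, P, hθ.1, hθ.2, hD, ?_, heq,
    fun t : ℝ => 1 + ε * ((τ * (1 + t)) ^ N)⁻¹, theta_jet ε τ hτ0 N, ?_⟩
  · have h1 : ∀ᶠ c' in 𝓝 c, ‖c'‖ < ρ := (continuous_norm.tendsto c).eventually (gt_mem_nhds hcρ)
    filter_upwards [h1] with c' hc'
    exact hle c' hc'.le
  · intro Q hQ
    have h1 : Tendsto (fun t : ℝ => ‖c + t • (Q *ᵥ v B c)‖) (𝓝[≥] 0)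
        (𝓝 ‖c + (0 : ℝ) • (Q *ᵥ v B c)‖) := by
      refine Tendsto.mono_left ?_ nhdsWithin_le_nhds
      apply Continuous.tendsto
      fun_prop
    rw [zero_smul, add_zero] at h1
    have hev : ∀ᶠ t in 𝓝[≥] (0 : ℝ), τ * (1 + t) < S := by
      have h1 : Tendsto (fun t : ℝ => τ * (1 + t)) (𝓝[≥] 0) (𝓝 (τ * (1 + 0))) := by
        refine Tendsto.mono_left ?_ nhdsWithin_le_nhds
        apply Continuous.tendsto
        fun_prop
      rw [add_zero, mul_one] at h1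
      exact h1.eventually (gt_mem_nhds hτS)
    filter_upwards [h1.eventually (gt_mem_nhds hcρ), hev, self_mem_nhdsWithin] with t ht1 ht2 ht3
    have ht3' : (0 : ℝ) ≤ t := ht3
    rcases ht3'.eq_or_lt with h0 | h0
    · subst h0
      simp only [zero_smul, add_zero, mul_one]
      exact heq.le
    · have hin := Dom_step hK hD hQ ht3' ht2.le ht1.le hPp hPt
      have h5 := hnot _ hin (by
        show τ < τ * (1 + t)
        nlinarith)
      have h6 : f (B + t • Q) (c + t • (Q *ᵥ v B c)) P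
        - (1 + ε * ((τ * (1 + t)) ^ N)⁻¹)
          * g (B + t • Q) (c + t • (Q *ᵥ v B c)) P < 0 := h5
      linarith

theorem Dom_contOn (hK : Cor K Adm) {f : Mat n → Vec n → Mat n → ℝ}
    (hf : ContinuousOn (fun q : Mat n × Vec n × Mat n => f q.1 q.2.1 q.2.2) {q | q.1.PosDef}) :
    ContinuousOn (fun p : ℝ × Mat n × Vec n × Mat n => f p.2.1 p.2.2.1 p.2.2.2)
      (Dom K S ρ) := by
  have hc : Continuous fun p : ℝ × Mat n × Vec n × Mat n => p.2 := continuous_snd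
  exact hf.comp hc.continuousOn fun p hp => Dom_posDef hK hp

/-! ### the corridor of (DD) -/

/-- upper growth -/
noncomputable def upf (Cc τ : ℝ) : ℝ := τ * Real.exp (Cc * (1 - 1 / τ))

theorem upf_one (Cc : ℝ) : upf Cc 1 = 1 := by simp [upf]

theorem upf_pos {Cc τ : ℝ} (h : 1 ≤ τ) : 0 < upf Cc τ := by
  unfold upf
  have : 0 < τ := by linarith
  positivity

theorem upf_le {Cc τ : ℝ} (hC : 0 ≤ Cc) (h : 1 ≤ τ) : upf Cc τ ≤ Real.exp Cc * τ := by
  have h0 : 0 < τ := by linarith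
  unfold upf
  rw [mul_comm]
  refine mul_le_mul_of_nonneg_right ?_ h0.le
  refine Real.exp_le_exp.2 ?_
  have : 0 ≤ 1 / τ := by positivity
  nlinarith

theorem upf_step {Cc τ t : ℝ} (h : 1 ≤ τ) (ht : 0 ≤ t) :
    (1 + t + Cc * t / τ) * upf Cc τ ≤ upf Cc (τ * (1 + t)) := by
  have h0 : 0 < τ := by linarith
  have h1 : 0 < 1 + t := by linarith
  have e : upf Cc (τ * (1 + t)) = (1 + t) * Real.exp (Cc / τ * (t / (1 + t))) * upf Cc τ := by
    unfold upf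
    have e1 : Cc * (1 - 1 / (τ * (1 + t))) = Cc / τ * (t / (1 + t)) + Cc * (1 - 1 / τ) := by
      field_simp
      ring
    rw [e1, Real.exp_add]
    ring
  rw [e]
  refine mul_le_mul_of_nonneg_right ?_ (upf_pos h).le
  have h2 := Real.add_one_le_exp (Cc / τ * (t / (1 + t)))
  have h3 := mul_le_mul_of_nonneg_left h2 h1.le
  refine le_trans (le_of_eq ?_) h3
  field_simp
  ring

/-- the corridor: `τ (B0 + m) ≤ B + m`, `B + M ≤ upf τ (B0 + M)` -/
def KX (D : TiltData n) (Cc : ℝ) (B0 : Mat n) : Set (ℝ × Mat n) :=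
  {q | 1 ≤ q.1 ∧ ((q.2 + D.m • (1 : Mat n)) - q.1 • (B0 + D.m • (1 : Mat n))).PosSemidef ∧
    (upf Cc q.1 • (B0 + D.M • (1 : Mat n)) - (q.2 + D.M • (1 : Mat n))).PosSemidef}

/-- admissible controls: `B + m ≤ Q ≤ (1 + Cc/τ) (B + M)` -/
def AdmX (D : TiltData n) (Cc τ : ℝ) (B Q : Mat n) : Prop :=
  (Q - (B + D.m • (1 : Mat n))).PosSemidef ∧
    ((1 + Cc / τ) • (B + D.M • (1 : Mat n)) - Q).PosSemidef

/-- the domain of (DD) -/
def DXq (D : TiltData n) (Cc : ℝ) (B0 : Mat n) (S ρ : ℝ) : Set (ℝ × Mat n × Vec n × Mat n) :=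
  Dom (KX D Cc B0) S ρ

theorem mem_DXq {D : TiltData n} {Cc : ℝ} {B0 : Mat n} {p : ℝ × Mat n × Vec n × Mat n} :
    p ∈ DXq D Cc B0 S ρ ↔ p.1 ∈ Icc 1 S ∧
      ((p.2.1 + D.m • (1 : Mat n)) - p.1 • (B0 + D.m • (1 : Mat n))).PosSemidef ∧
      (upf Cc p.1 • (B0 + D.M • (1 : Mat n)) - (p.2.1 + D.M • (1 : Mat n))).PosSemidef ∧
      ‖p.2.2.1‖ ≤ ρ ∧ p.2.2.2.PosSemidef ∧ p.2.2.2.trace = 1 := by
  constructor
  · rintro ⟨h1, ⟨-, h2, h3⟩, h4, h5, h6⟩
    exact ⟨h1, h2, h3, h4, h5, h6⟩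
  · rintro ⟨h1, h2, h3, h4, h5, h6⟩
    exact ⟨h1, ⟨h1.1, h2, h3⟩, h4, h5, h6⟩

theorem KX_low {D : TiltData n} {Cc : ℝ} {B0 : Mat n} {l : ℝ}
    (hl : (B0 - l • (1 : Mat n)).PosSemidef) {τ : ℝ} {B : Mat n} (h : (τ, B) ∈ KX D Cc B0) :
    (B - (l * τ) • (1 : Mat n)).PosSemidef := by
  obtain ⟨h1, h2, -⟩ := h
  simp only at h1 h2
  have h3 := (h2.add (hl.smul (zero_le_one.trans h1))).add
    (Matrix.PosSemidef.one.smul (mul_nonneg (sub_nonneg.2 h1) D.hm.le))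
  refine cast (congrArg Matrix.PosSemidef ?_) h3
  ext i j
  simp only [Matrix.sub_apply, Matrix.smul_apply, Matrix.add_apply, smul_eq_mul]
  ring

theorem KX_up {D : TiltData n} {Cc : ℝ} (hC : 0 ≤ Cc) {B0 : Mat n} {R : ℝ} (hR0 : 0 ≤ R)
    (hR : (R • (1 : Mat n) - (B0 + D.M • (1 : Mat n))).PosSemidef) {τ : ℝ} {B : Mat n}
    (h : (τ, B) ∈ KX D Cc B0) :
    ((Real.exp Cc * τ * R) • (1 : Mat n) - (B + D.M • (1 : Mat n))).PosSemidef := by
  obtain ⟨h1, -, h2⟩ := h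
  simp only at h1 h2
  have h3 := (h2.add (hR.smul (upf_pos (Cc := Cc) h1).le)).add
    (psd_mono_smul (n := n) (mul_le_mul_of_nonneg_right (upf_le hC h1) hR0))
  refine cast (congrArg Matrix.PosSemidef ?_) h3
  ext i j
  simp only [Matrix.sub_apply, Matrix.smul_apply, Matrix.add_apply, smul_eq_mul]
  ring

theorem inv_adm (D : TiltData n) {Cc : ℝ} (hC : 0 ≤ Cc) {τ : ℝ} (hτ : 1 ≤ τ) {B : Mat n}
    (hB : B.PosDef) (c : Vec n) : AdmX D Cc τ B (D.A B c)⁻¹ := by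
  have hM : 0 ≤ D.M := (D.hm.trans_le D.hM).le
  have h0 : 0 < τ := by linarith
  refine ⟨D.up B hB.posSemidef c, ?_⟩
  have h1 := (D.lo B hB.posSemidef c).add
    ((hB.posSemidef.add (Matrix.PosSemidef.one.smul hM)).smul
      (show (0 : ℝ) ≤ Cc / τ by positivity))
  refine cast (congrArg Matrix.PosSemidef ?_) h1
  ext i j
  simp only [Matrix.sub_apply, Matrix.smul_apply, Matrix.add_apply, smul_eq_mul]
  ring

theorem cor_KX (D : TiltData n) {Cc : ℝ} (hC : 0 ≤ Cc) {B0 : Mat n} (hB0 : B0.PosDef) :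
    Cor (KX D Cc B0) (AdmX D Cc) := by
  obtain ⟨R, hR0, hR⟩ := exists_smul_ge (B0 + D.M • (1 : Mat n)) (by
    rw [Matrix.transpose_add, (psd_iff.1 hB0.posSemidef).1, Matrix.transpose_smul,
      Matrix.transpose_one])
  have hM : 0 ≤ D.M := (D.hm.trans_le D.hM).le
  have hpd : ∀ τ B, 1 ≤ τ → (τ, B) ∈ KX D Cc B0 → B.PosDef := by
    rintro τ B hτ ⟨h1, h2, -⟩
    simp only at h1 h2
    have h3 : (B - B0).PosSemidef := by
      have h4 := h2.add ((hB0.posSemidef.add (Matrix.PosSemidef.one.smul D.hm.le)).smul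
        (sub_nonneg.2 h1))
      refine cast (congrArg Matrix.PosSemidef ?_) h4
      ext i j
      simp only [Matrix.sub_apply, Matrix.smul_apply, Matrix.add_apply, smul_eq_mul]
      ring
    have h5 := hB0.add_posSemidef h3
    refine cast (congrArg Matrix.PosDef ?_) h5
    abel
  refine ⟨?_, hpd, ?_, ?_, ?_⟩
  · have i1 : IsClosed {q : ℝ × Mat n | 1 ≤ q.1} := isClosed_le continuous_const continuous_fst
    have c1 : Continuous fun q : ℝ × Mat n =>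
        (q.2 + D.m • (1 : Mat n)) - q.1 • (B0 + D.m • (1 : Mat n)) := by fun_prop
    have c0 : ContinuousOn (fun q : ℝ × Mat n => upf Cc q.1) {q : ℝ × Mat n | 1 ≤ q.1} := by
      unfold upf
      refine ContinuousOn.mul continuous_fst.continuousOn (ContinuousOn.rexp ?_)
      refine continuousOn_const.mul (continuousOn_const.sub ?_)
      refine ContinuousOn.div continuousOn_const continuous_fst.continuousOn ?_
      intro q hq
      have h1 : (1 : ℝ) ≤ q.1 := hq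
      have : 0 < q.1 := by linarith
      exact this.ne'
    have c2 : ContinuousOn (fun q : ℝ × Mat n =>
        upf Cc q.1 • (B0 + D.M • (1 : Mat n)) - (q.2 + D.M • (1 : Mat n)))
        {q : ℝ × Mat n | 1 ≤ q.1} := by
      refine (c0.smul continuousOn_const).sub ?_
      have : Continuous fun q : ℝ × Mat n => q.2 + D.M • (1 : Mat n) := by fun_prop
      exact this.continuousOn
    have i2 := isClosed_psd.preimage c1
    have i3 := c2.preimage_isClosed_of_isClosed i1 isClosed_psd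
    have e : KX D Cc B0 = ((fun q : ℝ × Mat n =>
        (q.2 + D.m • (1 : Mat n)) - q.1 • (B0 + D.m • (1 : Mat n))) ⁻¹'
          {M : Mat n | M.PosSemidef}) ∩ ({q : ℝ × Mat n | 1 ≤ q.1} ∩
        ((fun q : ℝ × Mat n =>
          upf Cc q.1 • (B0 + D.M • (1 : Mat n)) - (q.2 + D.M • (1 : Mat n))) ⁻¹'
          {M : Mat n | M.PosSemidef})) := by
      ext q
      exact ⟨fun h => ⟨h.2.1, h.1, h.2.2⟩, fun h => ⟨h.2.1, h.1, h.2.2⟩⟩
    rw [e]
    exact i2.inter i3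
  · intro S
    refine ⟨Real.exp Cc * S * R, fun τ B h1 h2 h => ?_⟩
    have h3 := KX_up hC hR0 hR h
    have h4 : Real.exp Cc * τ * R ≤ Real.exp Cc * S * R := by gcongr
    have h5 := (h3.add (psd_mono_smul (n := n) h4)).add (Matrix.PosSemidef.one.smul hM)
    refine cast (congrArg Matrix.PosSemidef ?_) h5
    abel
  · intro τ B hτ h
    exact ⟨_, inv_adm D hC hτ (hpd τ B hτ h) 0⟩
  · rintro τ B Q t hτ ⟨h1, h2, h3⟩ ⟨hQ1, hQ2⟩ ht
    simp only at h1 h2 h3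
    have h0 : 0 < τ := by linarith
    refine ⟨?_, ?_, ?_⟩
    · show 1 ≤ τ * (1 + t)
      nlinarith
    · have h4 := (h2.smul (show (0 : ℝ) ≤ 1 + t by linarith)).add (hQ1.smul ht)
      refine cast (congrArg Matrix.PosSemidef ?_) h4
      ext i j
      simp only [Matrix.sub_apply, Matrix.smul_apply, Matrix.add_apply, smul_eq_mul]
      ring
    · have h4 := ((h3.smul (show (0 : ℝ) ≤ 1 + t + Cc * t / τ by positivity)).add
        (hQ2.smul ht)).add ((hB0.posSemidef.add (Matrix.PosSemidef.one.smul hM)).smul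
          (sub_nonneg.2 (upf_step (Cc := Cc) hτ ht)))
      refine cast (congrArg Matrix.PosSemidef ?_) h4
      ext i j
      simp only [Matrix.sub_apply, Matrix.smul_apply, Matrix.add_apply, smul_eq_mul]
      field_simp
      ring

/-! ### the concrete clock -/

/-- the clock `Lᵀ diag (r β) L` -/
noncomputable def Qcl (r : ℝ → ℝ) (A B : Mat n) : Mat n := A⁻¹ * Sf r A B * A⁻¹

theorem Qcl_eq {A B L : Mat n} {β : Vec n} (hA : Aᵀ = A) (h : Fr A B L β) (r : ℝ → ℝ) :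
    Qcl r A B = Lᵀ * Matrix.diagonal (fun i => r (β i)) * L := by
  unfold Qcl
  rw [Sf_eq hA h, h.inv_A, Matrix.transpose_mul, hA]
  have e1 : L * A * Lᵀ = 1 := h.hA
  calc Lᵀ * L * (A * Lᵀ * Matrix.diagonal (fun i => r (β i)) * (L * A)) * (Lᵀ * L)
      = Lᵀ * (L * A * Lᵀ) * Matrix.diagonal (fun i => r (β i)) * (L * A * Lᵀ) * L := by
        simp only [Matrix.mul_assoc]
    _ = _ := by rw [e1]; simp only [Matrix.mul_one]

/-- `β ≥ l / (l + M)` when `B ≥ l` -/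
theorem beta_ge {D : TiltData n} {B : Mat n} {l : ℝ} (hl : 0 < l)
    (hB : (B - l • (1 : Mat n)).PosSemidef) (c : Vec n) {L : Mat n} {β : Vec n}
    (h : Fr (D.A B c) B L β) (i : Fin n) : l / (l + D.M) ≤ β i := by
  have hBp := posDef_of_ge hl hB
  have h2 := D.lo B hBp.posSemidef c
  have hM : 0 < D.M := D.hm.trans_le D.hM
  have h3 : (B - (l / (l + D.M)) • (D.A B c)⁻¹).PosSemidef := by
    have h4 := (hB.smul (show (0 : ℝ) ≤ D.M / (l + D.M) by positivity)).add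
      (h2.smul (show (0 : ℝ) ≤ l / (l + D.M) by positivity))
    refine cast (congrArg Matrix.PosSemidef ?_) h4
    ext i j
    simp only [Matrix.sub_apply, Matrix.smul_apply, Matrix.add_apply, smul_eq_mul]
    field_simp
    ring
  have e : B - (l / (l + D.M)) • (D.A B c)⁻¹
      = Lᵀ * Matrix.diagonal (fun i => β i - l / (l + D.M)) * L := by
    have e1 : (Matrix.diagonal fun i => β i - l / (l + D.M) : Mat n)
        = Matrix.diagonal β - (l / (l + D.M)) • (1 : Mat n) := by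
      rw [Matrix.smul_one_eq_diagonal, Matrix.diagonal_sub]
    rw [e1, Matrix.mul_sub, Matrix.sub_mul, Matrix.mul_smul, Matrix.smul_mul, Matrix.mul_one,
      ← h.inv_A, ← h.hB]
  rw [e, psd_conj_iff h.isUnit, Matrix.posSemidef_diagonal_iff] at h3
  have := h3 i
  linarith

/-- comparison of clocks: `α + γ β ≤ r β` gives `α A⁻¹ + γ B ≤ Qcl` -/
theorem Qcl_ge {A B L : Mat n} {β : Vec n} (hA : Aᵀ = A) (h : Fr A B L β) {r : ℝ → ℝ} {α γ : ℝ}
    (hr : ∀ i, α + γ * β i ≤ r (β i)) : (Qcl r A B - (α • A⁻¹ + γ • B)).PosSemidef := by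
  have e : Qcl r A B - (α • A⁻¹ + γ • B)
      = Lᵀ * Matrix.diagonal (fun i => r (β i) - (α + γ * β i)) * L := by
    have e1 : (Matrix.diagonal fun i => r (β i) - (α + γ * β i) : Mat n)
        = Matrix.diagonal (fun i => r (β i)) - (α • (1 : Mat n) + γ • Matrix.diagonal β) := by
      rw [Matrix.smul_one_eq_diagonal, ← Matrix.diagonal_smul, Matrix.diagonal_add,
        Matrix.diagonal_sub]
      rfl
    rw [e1, Matrix.mul_sub, Matrix.sub_mul, ← Qcl_eq hA h, Matrix.mul_add, Matrix.add_mul,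
      Matrix.mul_smul, Matrix.smul_mul, Matrix.mul_smul, Matrix.smul_mul, Matrix.mul_one,
      ← h.inv_A, ← h.hB]
  rw [e, psd_conj_iff h.isUnit, Matrix.posSemidef_diagonal_iff]
  exact fun i => sub_nonneg.2 (hr i)

/-- comparison of clocks: `r β ≤ α + γ β` gives `Qcl ≤ α A⁻¹ + γ B` -/
theorem Qcl_le {A B L : Mat n} {β : Vec n} (hA : Aᵀ = A) (h : Fr A B L β) {r : ℝ → ℝ} {α γ : ℝ}
    (hr : ∀ i, r (β i) ≤ α + γ * β i) : ((α • A⁻¹ + γ • B) - Qcl r A B).PosSemidef := by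
  have e : (α • A⁻¹ + γ • B) - Qcl r A B
      = Lᵀ * Matrix.diagonal (fun i => (α + γ * β i) - r (β i)) * L := by
    have e1 : (Matrix.diagonal fun i => (α + γ * β i) - r (β i) : Mat n)
        = (α • (1 : Mat n) + γ • Matrix.diagonal β) - Matrix.diagonal (fun i => r (β i)) := by
      rw [Matrix.smul_one_eq_diagonal, ← Matrix.diagonal_smul, Matrix.diagonal_add,
        Matrix.diagonal_sub]
      rfl
    rw [e1, Matrix.mul_sub, Matrix.sub_mul, ← Qcl_eq hA h, Matrix.mul_add, Matrix.add_mul,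
      Matrix.mul_smul, Matrix.smul_mul, Matrix.mul_smul, Matrix.smul_mul, Matrix.mul_one,
      ← h.inv_A, ← h.hB]
  rw [e, psd_conj_iff h.isUnit, Matrix.posSemidef_diagonal_iff]
  exact fun i => sub_nonneg.2 (hr i)

/-- `1 ≤ r x ≤ 1 + κ (1 - x)` on `[l0/(l0+M), 1)` gives `B + m ≤ Qcl ≤ B + (1 + κ) M` -/
theorem Qcl_bounds (D : TiltData n) {l0 κ : ℝ} (h0 : 0 < l0) (hκ : 0 ≤ κ) {r : ℝ → ℝ}
    (hr1 : ∀ x ∈ Ico (l0 / (l0 + D.M)) 1, 1 ≤ r x)
    (hr2 : ∀ x ∈ Ico (l0 / (l0 + D.M)) 1, r x ≤ 1 + κ * (1 - x))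
    {B : Mat n} (hB : (B - l0 • (1 : Mat n)).PosSemidef) (c : Vec n) :
    (Qcl r (D.A B c) B - (B + D.m • (1 : Mat n))).PosSemidef ∧
      ((B + ((1 + κ) * D.M) • (1 : Mat n)) - Qcl r (D.A B c) B).PosSemidef := by
  have hBp := posDef_of_ge h0 hB
  obtain ⟨L, β, h⟩ := exists_Fr (D.posA B hBp.posSemidef c) hBp.isHermitian
  have hβ : ∀ i, β i ∈ Ico (l0 / (l0 + D.M)) 1 := fun i =>
    ⟨beta_ge h0 hB c h i, (h.beta_mem hBp c i).2⟩
  have hA : (D.A B c)ᵀ = D.A B c := A_symm' D B c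
  constructor
  · have h1 := Qcl_ge hA h (r := r) (α := 1) (γ := 0) (fun i => by
      have := hr1 _ (hβ i); linarith)
    have h2 := h1.add (D.up B hBp.posSemidef c)
    refine cast (congrArg Matrix.PosSemidef ?_) h2
    rw [one_smul, zero_smul]
    abel
  · have h1 := Qcl_le hA h (r := r) (α := 1 + κ) (γ := -κ) (fun i => by
      have := hr2 _ (hβ i); linarith)
    have h2 := h1.add ((D.lo B hBp.posSemidef c).smul (show (0 : ℝ) ≤ 1 + κ by linarith))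
    refine cast (congrArg Matrix.PosSemidef ?_) h2
    ext i j
    simp only [Matrix.sub_apply, Matrix.smul_apply, Matrix.add_apply, smul_eq_mul]
    ring

/-! ### continuity -/

theorem A_contOn (D : TiltData n) :
    ContinuousOn (fun q : Mat n × Vec n => D.A q.1 q.2) {q | q.1.PosDef} := by
  intro q hq
  refine tendsto_pi_nhds.2 fun i => tendsto_pi_nhds.2 fun j => ?_
  exact ((D.cA i j).mono (fun q (hq : q.1.PosDef) => ⟨hq.posSemidef, trivial⟩)) q hq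

theorem T_contOn (D : TiltData n) (i j k : Fin n) :
    ContinuousOn (fun q : Mat n × Vec n => D.T q.1 q.2 i j k) {q | q.1.PosDef} :=
  (D.cT i j k).mono fun _ (hq : Matrix.PosDef _) => ⟨hq.posSemidef, trivial⟩

theorem Sf_contOn (D : TiltData n) {φ : ℝ → ℝ} (hφ : ∀ x ∈ Ioo (0 : ℝ) 1, ContinuousAt φ x) :
    ContinuousOn (fun q : Mat n × Vec n => Sf φ (D.A q.1 q.2) q.1) {q | q.1.PosDef} := by
  intro q hq
  have hB : q.1.PosDef := hq
  have hA := (A_contOn D) q hq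
  have hBt : Tendsto (fun q : Mat n × Vec n => q.1) (𝓝[{q : Mat n × Vec n | q.1.PosDef}] q)
      (𝓝 q.1) := continuous_fst.continuousWithinAt
  obtain ⟨L, β, h⟩ := exists_Fr (D.posA q.1 hB.posSemidef q.2) hB.isHermitian
  have hS := Sf_tendsto h (A_symm' D _ _) hA hBt (f := φ)
    (fun i => hφ _ (h.beta_mem hB q.2 i)) (by
      filter_upwards [self_mem_nhdsWithin] with q hq
      have hB' : q.1.PosDef := hq
      exact ⟨A_symm' D _ _, exists_Fr (D.posA _ hB'.posSemidef _) hB'.isHermitian⟩)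
  exact hS

/-! ### homogeneity -/

/-- from trace one to all positive semidefinite matrices -/
theorem le_of_trace_one {u v : Mat n → ℝ} {k : ℕ} (hk : k ≠ 0)
    (hu : ∀ (P : Mat n) (r : ℝ), u (r • P) = r ^ k * u P)
    (hv : ∀ (P : Mat n) (r : ℝ), v (r • P) = r ^ k * v P)
    (h : ∀ P : Mat n, P.PosSemidef → P.trace = 1 → u P ≤ v P) :
    ∀ P : Mat n, P.PosSemidef → u P ≤ v P := by
  intro P hP
  rcases eq_or_ne P 0 with h0 | h0
  · subst h0
    have e1 := hu (0 : Mat n) 0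
    have e2 := hv (0 : Mat n) 0
    rw [smul_zero, zero_pow hk, zero_mul] at e1 e2
    rw [e1, e2]
  · have hr := trace_pos_of hP h0
    set r := P.trace with hrd
    have e : P = r • (r⁻¹ • P) := by rw [smul_smul, mul_inv_cancel₀ hr.ne', one_smul]
    rw [e, hu, hv]
    have h1 := h (r⁻¹ • P) (hP.smul (inv_nonneg.2 hr.le)) (by
      rw [Matrix.trace_smul, smul_eq_mul, ← hrd, inv_mul_cancel₀ hr.ne'])
    exact mul_le_mul_of_nonneg_left h1 (by positivity)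

/-! ### the abstract maximum principle -/

theorem exists_bounds {B : Mat n} (hB : B.PosDef) :
    ∃ l L : ℝ, 0 < l ∧ 0 < L ∧ (B - l • (1 : Mat n)).PosSemidef ∧
      (L • (1 : Mat n) - B).PosSemidef := by
  have hT : Bᵀ = B := (psd_iff.1 hB.posSemidef).1
  obtain ⟨R, hR0, hR⟩ := exists_smul_ge B hT
  obtain ⟨U, lam, h1, h2, h3, h4⟩ := spec_symm hB.isHermitian
  have hlam : ∀ i, 0 < lam i := fun i => by rw [h4]; exact hB.eigenvalues_pos i
  have hs : 0 ≤ ∑ j, (lam j)⁻¹ := Finset.sum_nonneg fun j _ => (inv_pos.2 (hlam j)).le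
  refine ⟨(1 + ∑ j, (lam j)⁻¹)⁻¹, R + 1, by positivity, by linarith, ?_, ?_⟩
  · have hl : ∀ i, (1 + ∑ j, (lam j)⁻¹)⁻¹ ≤ lam i := by
      intro i
      have h5 : (lam i)⁻¹ ≤ ∑ j, (lam j)⁻¹ :=
        Finset.single_le_sum (f := fun j => (lam j)⁻¹) (fun j _ => (inv_pos.2 (hlam j)).le)
          (Finset.mem_univ i)
      have h6 := inv_anti₀ (inv_pos.2 (hlam i)) (h5.trans (by linarith :
        ∑ j, (lam j)⁻¹ ≤ 1 + ∑ j, (lam j)⁻¹))
      rwa [inv_inv] at h6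
    generalize (1 + ∑ j, (lam j)⁻¹)⁻¹ = l at hl
    have e : B - l • (1 : Mat n) = Uᵀᵀ * Matrix.diagonal (fun i => lam i - l) * Uᵀ := by
      have e1 : (Matrix.diagonal fun i => lam i - l : Mat n)
          = Matrix.diagonal lam - l • (1 : Mat n) := by
        rw [Matrix.smul_one_eq_diagonal, Matrix.diagonal_sub]
      rw [Matrix.transpose_transpose, e1, Matrix.mul_sub, Matrix.sub_mul, ← h3, Matrix.mul_smul,
        Matrix.mul_one, Matrix.smul_mul, h2]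
    have hU : IsUnit Uᵀ := IsUnit.of_mul_eq_one _ h1
    rw [e, psd_conj_iff hU, Matrix.posSemidef_diagonal_iff]
    exact fun i => sub_nonneg.2 (hl i)
  · have h5 := hR.add (psd_mono_smul (n := n) (show R ≤ R + 1 by linarith))
    refine cast (congrArg Matrix.PosSemidef ?_) h5
    abel

/-- admissibility of the clocks `Lᵀ diag q L` -/
theorem adm_of_q (D : TiltData n) {Cc l0 C : ℝ} {B0 : Mat n} (h0 : 0 < l0)
    (hl0 : (B0 - l0 • (1 : Mat n)).PosSemidef) (hC : 0 ≤ C) (hCc : C * D.M / l0 ≤ Cc)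
    {τ : ℝ} {B : Mat n} (hK : (τ, B) ∈ KX D Cc B0) (c : Vec n) {L : Mat n} {β q : Vec n}
    (h : Fr (D.A B c) B L β) (hq1 : ∀ i, 1 ≤ q i)
    (hq2 : ∀ x : ℝ, l0 / (l0 + D.M) ≤ x → x < 1 → (∀ k, x ≤ β k) →
      ∀ i, q i ≤ 1 + C * (1 - x)) :
    AdmX D Cc τ B (Lᵀ * Matrix.diagonal q * L) := by
  have hτ : 1 ≤ τ := hK.1
  have hτ0 : 0 < τ := by linarith
  have hM : 0 < D.M := D.hm.trans_le D.hM
  have hBl := KX_low hl0 hK
  have hlτ : 0 < l0 * τ := by positivity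
  have hB := posDef_of_ge hlτ hBl
  have hx : ∀ k, l0 * τ / (l0 * τ + D.M) ≤ β k := beta_ge hlτ hBl c h
  have hx1 : l0 * τ / (l0 * τ + D.M) < 1 := by
    rw [div_lt_one (by positivity)]; linarith
  have hx0 : l0 / (l0 + D.M) ≤ l0 * τ / (l0 * τ + D.M) := by
    rw [div_le_div_iff₀ (by positivity) (by positivity)]
    nlinarith [mul_nonneg (mul_nonneg h0.le hM.le) (sub_nonneg.2 hτ)]
  have hq3 : ∀ i, q i ≤ 1 + Cc / τ := by
    intro i
    refine (hq2 _ hx0 hx1 hx i).trans ?_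
    have e1 : 1 - l0 * τ / (l0 * τ + D.M) = D.M / (l0 * τ + D.M) := by
      field_simp
      ring
    have e2 : D.M / (l0 * τ + D.M) ≤ D.M / (l0 * τ) :=
      div_le_div_of_nonneg_left hM.le hlτ (by linarith)
    have e3 : C * (D.M / (l0 * τ)) = C * D.M / l0 / τ := by field_simp
    rw [e1]
    have e4 := mul_le_mul_of_nonneg_left e2 hC
    rw [e3] at e4
    have e5 : C * D.M / l0 / τ ≤ Cc / τ := div_le_div_of_nonneg_right hCc hτ0.le
    linarith
  constructor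
  · have e : Lᵀ * Matrix.diagonal q * L - (D.A B c)⁻¹
        = Lᵀ * Matrix.diagonal (fun i => q i - 1) * L := by
      have e1 : (Matrix.diagonal fun i => q i - 1 : Mat n)
          = Matrix.diagonal q - (1 : Mat n) := by
        rw [← Matrix.diagonal_one, Matrix.diagonal_sub]
      rw [e1, Matrix.mul_sub, Matrix.sub_mul, Matrix.mul_one, ← h.inv_A]
    have h1 : (Lᵀ * Matrix.diagonal q * L - (D.A B c)⁻¹).PosSemidef := by
      rw [e, psd_conj_iff h.isUnit, Matrix.posSemidef_diagonal_iff]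
      exact fun i => sub_nonneg.2 (hq1 i)
    have h2 := h1.add (D.up B hB.posSemidef c)
    refine cast (congrArg Matrix.PosSemidef ?_) h2
    abel
  · have e : (1 + Cc / τ) • (D.A B c)⁻¹ - Lᵀ * Matrix.diagonal q * L
        = Lᵀ * Matrix.diagonal (fun i => (1 + Cc / τ) - q i) * L := by
      have e1 : (Matrix.diagonal fun i => (1 + Cc / τ) - q i : Mat n)
          = (1 + Cc / τ) • (1 : Mat n) - Matrix.diagonal q := by
        rw [Matrix.smul_one_eq_diagonal, Matrix.diagonal_sub]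
      rw [e1, Matrix.mul_sub, Matrix.sub_mul, Matrix.mul_smul, Matrix.smul_mul, Matrix.mul_one,
        ← h.inv_A]
    have h1 : ((1 + Cc / τ) • (D.A B c)⁻¹ - Lᵀ * Matrix.diagonal q * L).PosSemidef := by
      rw [e, psd_conj_iff h.isUnit, Matrix.posSemidef_diagonal_iff]
      exact fun i => sub_nonneg.2 (hq3 i)
    have hCc0 : 0 ≤ Cc := le_trans (by positivity) hCc
    have h2 := h1.add ((D.lo B hB.posSemidef c).smul (show (0 : ℝ) ≤ 1 + Cc / τ by positivity))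
    refine cast (congrArg Matrix.PosSemidef ?_) h2
    ext i j
    simp only [Matrix.sub_apply, Matrix.smul_apply, Matrix.add_apply, smul_eq_mul]
    ring

/-- **The abstract maximum principle** for a pair of functionals `f ≤ g`; clocks
`Q = Lᵀ diag q L`, `1 ≤ q i`, `q i ≤ rho x` as soon as `x ≤ β k` for all `k`. -/
theorem maxPrinciple (D : TiltData n) {rho : ℝ → ℝ} (hrho : DD.RhoOK rho)
    {f g : Mat n → Vec n → Mat n → ℝ}
    (hfc : ContinuousOn (fun q : Mat n × Vec n × Mat n => f q.1 q.2.1 q.2.2) {q | q.1.PosDef})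
    (hgc : ContinuousOn (fun q : Mat n × Vec n × Mat n => g q.1 q.2.1 q.2.2) {q | q.1.PosDef})
    (hg0 : ∀ B : Mat n, B.PosDef → ∀ (c : Vec n) (P : Mat n), P.PosSemidef → 0 ≤ g B c P)
    (htop : ∀ a K : ℝ, 0 < a → 0 < K → ∃ S₀ : ℝ, ∀ s, S₀ ≤ s → 1 ≤ s → ∀ B : Mat n,
      (B - (a * s) • (1 : Mat n)).PosSemidef →
      ((K * s) • (1 : Mat n) - (B + D.M • (1 : Mat n))).PosSemidef →
      ∀ (c : Vec n) (P : Mat n), P.PosSemidef → P.trace = 1 → f B c P < g B c P)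
    (hside : ∀ l b : ℝ, 0 < l → 0 < b → ∃ ρ₀ : ℝ, ∀ B : Mat n, (B - l • (1 : Mat n)).PosSemidef →
      (b • (1 : Mat n) - (B + D.M • (1 : Mat n))).PosSemidef → ∀ c : Vec n, ρ₀ ≤ ‖c‖ →
      ∀ P : Mat n, P.PosSemidef → P.trace = 1 → f B c P < g B c P)
    (hloc : ∀ l b : ℝ, 0 < l → 0 < b → ∃ N : ℕ, ∀ (e : ℝ) (B : Mat n) (c : Vec n) (P : Mat n)
      (ϑ : ℝ → ℝ), 0 < e → e ≤ 1 → (B - l • (1 : Mat n)).PosSemidef →
      (b • (1 : Mat n) - (B + D.M • (1 : Mat n))).PosSemidef → P.PosSemidef → P.trace = 1 →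
      (∀ᶠ c' in 𝓝 c, ∀ P' : Mat n, P'.PosSemidef → P'.trace = 1 →
        f B c' P' ≤ (1 + e) * g B c' P') →
      f B c P = (1 + e) * g B c P →
      J1 (𝓝[≥] 0) ϑ (1 + e) (-(N * e)) →
      (∀ (L : Mat n) (β q : Vec n), Fr (D.A B c) B L β → (∀ i, 1 ≤ q i) →
        (∀ x ∈ Ioo (0 : ℝ) 1, (∀ k, x ≤ β k) → ∀ i, q i ≤ rho x) →
        ∀ᶠ t in 𝓝[≥] (0 : ℝ),
        f (B + t • (Lᵀ * Matrix.diagonal q * L))
            (c + t • ((Lᵀ * Matrix.diagonal q * L) *ᵥ D.mu B c)) P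
          ≤ ϑ t * g (B + t • (Lᵀ * Matrix.diagonal q * L))
            (c + t • ((Lᵀ * Matrix.diagonal q * L) *ᵥ D.mu B c)) P) →
      False)
    {B : Mat n} (hB : B.PosDef) (c : Vec n) {P : Mat n} (hP : P.PosSemidef)
    (hP1 : P.trace = 1) : f B c P ≤ g B c P := by
  by_contra hcon
  push Not at hcon
  obtain ⟨l0, L0, hl0, hL0, hBl, hBL⟩ := exists_bounds hB
  have hM : 0 < D.M := D.hm.trans_le D.hM
  have hx0 : l0 / (l0 + D.M) ∈ Ioo (0 : ℝ) 1 :=
    ⟨by positivity, by rw [div_lt_one (by positivity)]; linarith⟩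
  obtain ⟨C', hC'⟩ := hrho _ hx0.1
  set C : ℝ := max C' 0 with hC
  have hC0 : 0 ≤ C := le_max_right _ _
  have hCr : ∀ x ∈ Ioo (0 : ℝ) 1, l0 / (l0 + D.M) ≤ x → rho x ≤ 1 + C * (1 - x) := by
    intro x hx hx'
    refine (hC' x hx hx').trans ?_
    have h1 : 0 ≤ 1 - x := by linarith [hx.2]
    have h2 := mul_le_mul_of_nonneg_right (le_max_left C' 0) h1
    linarith
  set Cc : ℝ := C * D.M / l0 with hCc
  have hCc0 : 0 ≤ Cc := by positivity
  have hK := cor_KX D hCc0 hB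
  set R : ℝ := L0 + D.M with hR
  have hR0 : 0 < R := by positivity
  have hRB : (R • (1 : Mat n) - (B + D.M • (1 : Mat n))).PosSemidef := by
    refine cast (congrArg Matrix.PosSemidef ?_) hBL
    rw [hR, add_smul]
    abel
  have hup : ∀ {τ : ℝ} {B' : Mat n}, (τ, B') ∈ KX D Cc B →
      (((Real.exp Cc * R) * τ) • (1 : Mat n) - (B' + D.M • (1 : Mat n))).PosSemidef := by
    intro τ B' h
    refine cast (congrArg Matrix.PosSemidef ?_) (KX_up hCc0 hR0.le hRB h)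
    congr 2
    ring
  -- the top
  obtain ⟨S₀, hS₀⟩ := htop l0 (Real.exp Cc * R) hl0 (by positivity)
  set S : ℝ := max S₀ 1 with hS
  have hS1 : 1 ≤ S := le_max_right _ _
  set b : ℝ := Real.exp Cc * R * S with hb
  have hb0 : 0 < b := by positivity
  have hcor : ∀ {τ : ℝ} {B' : Mat n}, τ ≤ S → (τ, B') ∈ KX D Cc B →
      (B' - l0 • (1 : Mat n)).PosSemidef ∧
      (b • (1 : Mat n) - (B' + D.M • (1 : Mat n))).PosSemidef := by
    intro τ B' hτS h
    have h1 : 1 ≤ τ := h.1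
    constructor
    · have h4 := (KX_low hBl h).add (psd_mono_smul (n := n) (show l0 ≤ l0 * τ by nlinarith))
      refine cast (congrArg Matrix.PosSemidef ?_) h4
      abel
    · have h4 := (hup h).add (psd_mono_smul (n := n)
        (show Real.exp Cc * R * τ ≤ b by rw [hb]; gcongr))
      refine cast (congrArg Matrix.PosSemidef ?_) h4
      abel
  -- the side
  obtain ⟨ρ₀, hρ₀⟩ := hside l0 b hl0 hb0
  set ρ : ℝ := max ρ₀ ‖c‖ with hρ
  obtain ⟨N, hN⟩ := hloc l0 b hl0 hb0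
  have hstart : ((1 : ℝ), B, c, P) ∈ Dom (KX D Cc B) S ρ := by
    refine ⟨⟨le_rfl, hS1⟩, ⟨le_rfl, ?_, ?_⟩, le_max_right _ _, hP, hP1⟩
    · simpa using Matrix.PosSemidef.zero
    · simpa [upf_one] using Matrix.PosSemidef.zero
  obtain ⟨e, τ, B', c', P', he0, he1, hD, hle, heq, ϑ, hϑ, hev⟩ :=
    exists_contact hK (D.mu) (Dom_contOn hK hfc) (Dom_contOn hK hgc)
      (fun p hp => hg0 _ (Dom_posDef hK hp) _ _ hp.2.2.2.1)
      (fun p hp hpS => by
        have h1 := KX_low hBl hp.2.1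
        have h2 := hup hp.2.1
        exact hS₀ p.1 (by rw [hpS]; exact le_max_left _ _) hp.1.1 _ h1 h2 _ _ hp.2.2.2.1
          hp.2.2.2.2)
      (fun p hp hpρ => by
        obtain ⟨h1, h2⟩ := hcor hp.1.2 hp.2.1
        exact hρ₀ _ h1 h2 _ (by rw [hpρ]; exact le_max_left _ _) _ hp.2.2.2.1
          hp.2.2.2.2)
      hstart hcon N
  obtain ⟨h1, h2⟩ := hcor hD.1.2 hD.2.1
  refine hN e B' c' P' ϑ he0 he1 h1 h2 hD.2.2.2.1 hD.2.2.2.2 hle heq hϑ ?_
  intro L β q hF hq1 hq2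
  refine hev _ (adm_of_q D hl0 hBl hC0 le_rfl hD.2.1 c' hF hq1 ?_)
  intro x hx1 hx2 hx3 i
  have hx : x ∈ Ioo (0 : ℝ) 1 := ⟨hx0.1.trans_le hx1, hx2⟩
  exact (hq2 x hx hx3 i).trans (hCr x hx hx1)

end Vale.Agent.P254.DDom
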